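import Vale.Agent.Lib.P335.Cond

/-!
The expansion of the square of a sum over ordered pairs of indices.
-/

set_option linter.unusedSectionVars false

namespace Vale.Agent.Lib.P328

open Finset
open Vale.Agent.Lib.P335 (dot dot_comm dot_self_nonneg)

variable {n : ℕ} {X ι : Type*} [DecidableEq X]

theorem dot_sum_left (s : Finset X) (t : Finset ι) (h : ι → X → ℝ) (g : X → ℝ) :
    dot s (fun x => ∑ i ∈ t, h i x) g = ∑ i ∈ t, dot s (h i) g := by
  unfold dot
  simp only [Finset.sum_mul]
  rw [Finset.sum_comm]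

theorem dot_sum_right (s : Finset X) (t : Finset ι) (h : ι → X → ℝ) (g : X → ℝ) :
    dot s g (fun x => ∑ i ∈ t, h i x) = ∑ i ∈ t, dot s g (h i) := by
  rw [dot_comm, dot_sum_left]
  exact Finset.sum_congr rfl (fun i _ => dot_comm _ _ _)

/-- The indices other than two given ones. -/
def others (u v : Fin n) : Finset (Fin n) := univ.filter fun c => c ≠ u ∧ c ≠ v

/-- Quadruples of distinct indices. -/
def quads4 (n : ℕ) : Finset (Fin n × Fin n × Fin n × Fin n) :=
  univ.filter fun q => q.1 ≠ q.2.1 ∧ q.1 ≠ q.2.2.1 ∧ q.1 ≠ q.2.2.2 ∧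
    q.2.1 ≠ q.2.2.1 ∧ q.2.1 ≠ q.2.2.2 ∧ q.2.2.1 ≠ q.2.2.2

theorem mem_quads4 {q : Fin n × Fin n × Fin n × Fin n} :
    q ∈ quads4 n ↔ q.1 ≠ q.2.1 ∧ q.1 ≠ q.2.2.1 ∧ q.1 ≠ q.2.2.2 ∧
      q.2.1 ≠ q.2.2.1 ∧ q.2.1 ≠ q.2.2.2 ∧ q.2.2.1 ≠ q.2.2.2 := by
  simp [quads4]

theorem sum_erase_ite (a : Fin n) (h : Fin n → ℝ) :
    ∑ b ∈ univ.erase a, h b = ∑ b, if b ≠ a then h b else 0 := by
  rw [← Finset.sum_filter]
  refine Finset.sum_congr ?_ (fun _ _ => rfl)
  ext b
  simp

theorem sum_other_ite (a b : Fin n) (h : Fin n → ℝ) :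
    ∑ c ∈ others a b, h c = ∑ c, if c ≠ a ∧ c ≠ b then h c else 0 := by
  rw [← Finset.sum_filter]
  rfl

theorem sum_other_erase_ite (a b c : Fin n) (h : Fin n → ℝ) :
    ∑ e ∈ (others a b).erase c, h e = ∑ e, if e ≠ c ∧ e ≠ a ∧ e ≠ b then h e else 0 := by
  rw [← Finset.sum_filter]
  refine Finset.sum_congr ?_ (fun _ _ => rfl)
  ext e
  simp [others]

/-- The triples of distinct indices. -/
def triples3 (n : ℕ) : Finset (Fin n × Fin n × Fin n) :=
  univ.filter fun t => t.1 ≠ t.2.1 ∧ t.1 ≠ t.2.2 ∧ t.2.1 ≠ t.2.2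

theorem sum_triples3 (g : Fin n → Fin n → Fin n → ℝ) :
    ∑ a, ∑ b ∈ univ.erase a, ∑ w ∈ others a b, g a b w =
      ∑ t ∈ triples3 n, g t.1 t.2.1 t.2.2 := by
  unfold triples3
  rw [Finset.sum_filter, Fintype.sum_prod_type]
  refine Finset.sum_congr rfl (fun a _ => ?_)
  rw [Fintype.sum_prod_type, sum_erase_ite]
  refine Finset.sum_congr rfl (fun b _ => ?_)
  rw [sum_other_ite]
  by_cases hb : b = a
  · subst hb
    simp
  · have hab : a ≠ b := fun h => hb h.symm
    simp only [hb, hab, not_false_eq_true, if_true, ne_eq, true_and, false_and, if_false]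
    refine Finset.sum_congr rfl (fun w _ => ?_)
    by_cases h1 : w = a
    · subst h1
      simp
    · by_cases h2 : w = b
      · subst h2
        simp
      · have h3 : a ≠ w := fun h => h1 h.symm
        have h4 : b ≠ w := fun h => h2 h.symm
        simp [h1, h2, h3, h4]

theorem sum_quads4 (G : Fin n → Fin n → Fin n → Fin n → ℝ) :
    ∑ a, ∑ b ∈ univ.erase a, ∑ w ∈ others a b, ∑ z ∈ (others a b).erase w, G a b w z =
      ∑ q ∈ quads4 n, G q.1 q.2.1 q.2.2.1 q.2.2.2 := by
  unfold quads4
  rw [Finset.sum_filter, Fintype.sum_prod_type]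
  refine Finset.sum_congr rfl (fun a _ => ?_)
  rw [Fintype.sum_prod_type, sum_erase_ite]
  refine Finset.sum_congr rfl (fun b _ => ?_)
  rw [Fintype.sum_prod_type, sum_other_ite]
  by_cases hb : b = a
  · subst hb
    simp
  · have hab : a ≠ b := fun h => hb h.symm
    simp only [hb, hab, not_false_eq_true, if_true, ne_eq, true_and, false_and, if_false]
    refine Finset.sum_congr rfl (fun w _ => ?_)
    by_cases h1 : w = a
    · subst h1
      simp
    · by_cases h2 : w = b
      · subst h2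
        simp
      · have h3 : a ≠ w := fun h => h1 h.symm
        have h4 : b ≠ w := fun h => h2 h.symm
        simp only [h1, h2, h3, h4, not_false_eq_true, if_true, ne_eq, true_and, and_self]
        rw [sum_other_erase_ite]
        refine Finset.sum_congr rfl (fun z _ => ?_)
        by_cases h5 : z = w
        · subst h5
          simp
        · have h6 : w ≠ z := fun h => h5 h.symm
          by_cases h7 : z = a
          · subst h7
            simp
          · by_cases h8 : z = b
            · subst h8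
              simp
            · have h9 : a ≠ z := fun h => h7 h.symm
              have h10 : b ≠ z := fun h => h8 h.symm
              simp [h5, h6, h7, h8, h9, h10]

/-- Splitting a sum over ordered pairs with respect to a given pair. -/
theorem sum_ordered_split {a b : Fin n} (hab : a ≠ b) (g : Fin n → Fin n → ℝ) :
    ∑ c, ∑ e ∈ univ.erase c, g c e =
      g a b + g b a + ∑ w ∈ others a b, (g a w + g w a + g b w + g w b) +
        ∑ w ∈ others a b, ∑ z ∈ (others a b).erase w, g w z := by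
  have hU : (univ : Finset (Fin n)) = insert a (insert b (others a b)) := by
    ext c
    simp only [others, mem_univ, mem_insert, mem_filter, true_and, true_iff]
    by_cases h1 : c = a
    · exact Or.inl h1
    · by_cases h2 : c = b
      · exact Or.inr (Or.inl h2)
      · exact Or.inr (Or.inr ⟨h1, h2⟩)
  have hbW : b ∉ others a b := by simp [others]
  have haW : a ∉ others a b := by simp [others]
  have haI : a ∉ insert b (others a b) := by
    simp only [mem_insert, not_or]
    exact ⟨hab, haW⟩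
  have hE1 : (univ : Finset (Fin n)).erase a = insert b (others a b) := by
    rw [hU, erase_insert haI]
  have hE2 : (univ : Finset (Fin n)).erase b = insert a (others a b) := by
    rw [hU, Finset.insert_comm, erase_insert]
    simp only [mem_insert, not_or]
    exact ⟨hab.symm, hbW⟩
  have hE3 : ∀ c ∈ others a b, (univ : Finset (Fin n)).erase c =
      insert a (insert b ((others a b).erase c)) := by
    intro c hc
    simp only [others, mem_filter, mem_univ, true_and] at hc
    ext e
    simp only [mem_erase, mem_univ, and_true, mem_insert, others, mem_filter, true_and]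
    by_cases h1 : e = a
    · subst h1
      simp [hc.1.symm]
    · by_cases h2 : e = b
      · subst h2
        simp [hc.2.symm]
      · simp [h1, h2]
  have hsum3 : ∀ c ∈ others a b, ∑ e ∈ univ.erase c, g c e =
      g c a + g c b + ∑ e ∈ (others a b).erase c, g c e := by
    intro c hc
    rw [hE3 c hc, sum_insert, sum_insert]
    · ring
    · intro h
      exact hbW (mem_of_mem_erase h)
    · simp only [mem_insert, not_or]
      exact ⟨hab, fun h => haW (mem_of_mem_erase h)⟩
  rw [hU, sum_insert haI, sum_insert hbW, ← hU, hE1, hE2, sum_insert hbW, sum_insert haW,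
    Finset.sum_congr rfl hsum3]
  simp only [Finset.sum_add_distrib]
  ring

theorem mem_triples3 {t : Fin n × Fin n × Fin n} :
    t ∈ triples3 n ↔ t.1 ≠ t.2.1 ∧ t.1 ≠ t.2.2 ∧ t.2.1 ≠ t.2.2 := by
  simp [triples3]

theorem triples_relabel (g : Fin n → Fin n → Fin n → ℝ) (i : Fin n × Fin n × Fin n → Fin n × Fin n × Fin n)
    (j : Fin n × Fin n × Fin n → Fin n × Fin n × Fin n)
    (hi : ∀ t ∈ triples3 n, i t ∈ triples3 n) (hj : ∀ t ∈ triples3 n, j t ∈ triples3 n)
    (hij : ∀ t, j (i t) = t) (hji : ∀ t, i (j t) = t) :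
    ∑ t ∈ triples3 n, g (i t).1 (i t).2.1 (i t).2.2 = ∑ t ∈ triples3 n, g t.1 t.2.1 t.2.2 :=
  Finset.sum_nbij' i j hi hj (fun t _ => hij t) (fun t _ => hji t) (fun _ _ => rfl)

section Algebra

variable (s : Finset X) (v : Fin n → Fin n → X → ℝ)

/-- The sum over ordered pairs. -/
noncomputable def sumOrd (x : X) : ℝ := ∑ a, ∑ b ∈ univ.erase a, v a b x

/-- The sum of the squared norms over ordered pairs. -/
noncomputable def sumNorm : ℝ := ∑ a, ∑ b ∈ univ.erase a, dot s (v a b) (v a b)

theorem dot_sumOrd_right (g : X → ℝ) :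
    dot s g (sumOrd v) = ∑ a, ∑ b ∈ univ.erase a, dot s g (v a b) := by
  unfold sumOrd
  rw [dot_sum_right]
  refine Finset.sum_congr rfl (fun a _ => ?_)
  rw [dot_sum_right]

theorem dot_sumOrd_left (g : X → ℝ) :
    dot s (sumOrd v) g = ∑ a, ∑ b ∈ univ.erase a, dot s (v a b) g := by
  rw [dot_comm, dot_sumOrd_right]
  refine Finset.sum_congr rfl (fun a _ => Finset.sum_congr rfl (fun b _ => dot_comm _ _ _))

variable (hsym : ∀ a b, v a b = v b a)

include hsym in
/-- The expansion of the square. -/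
theorem dot_sumOrd_sumOrd :
    dot s (sumOrd v) (sumOrd v) = 2 * sumNorm s v +
      2 * ∑ t ∈ triples3 n, (dot s (v t.1 t.2.1) (v t.1 t.2.2) +
        dot s (v t.1 t.2.1) (v t.2.1 t.2.2)) +
      ∑ q ∈ quads4 n, dot s (v q.1 q.2.1) (v q.2.2.1 q.2.2.2) := by
  rw [dot_sumOrd_left, ← sum_triples3 (fun a b w => dot s (v a b) (v a w) +
      dot s (v a b) (v b w)),
    ← sum_quads4 (fun a b w z => dot s (v a b) (v w z))]
  unfold sumNorm
  simp only [Finset.mul_sum]
  simp only [← Finset.sum_add_distrib]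
  refine Finset.sum_congr rfl (fun a _ => Finset.sum_congr rfl (fun b hb => ?_))
  have hab : a ≠ b := (ne_of_mem_erase hb).symm
  rw [dot_sumOrd_right, sum_ordered_split hab (fun c e => dot s (v a b) (v c e))]
  have h1 : v b a = v a b := hsym b a
  rw [h1]
  have h2 : ∀ w ∈ others a b,
      dot s (v a b) (v a w) + dot s (v a b) (v w a) +
        dot s (v a b) (v b w) + dot s (v a b) (v w b) =
      2 * (dot s (v a b) (v a w) + dot s (v a b) (v b w)) := by
    intro w _
    rw [hsym w a, hsym w b]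
    ring
  rw [Finset.sum_congr rfl h2]
  ring

include hsym in
/-- The triple term is nonnegative. -/
theorem triple_term_nonneg
    (hT : ∀ {u v' w : Fin n}, u ≠ v' → u ≠ w → v' ≠ w →
      0 ≤ dot s (v u v') (v u w) + dot s (v u v') (v v' w) + dot s (v u w) (v v' w)) :
    0 ≤ ∑ t ∈ triples3 n, (dot s (v t.1 t.2.1) (v t.1 t.2.2) +
        dot s (v t.1 t.2.1) (v t.2.1 t.2.2)) := by
  set H := ∑ t ∈ triples3 n, dot s (v t.1 t.2.1) (v t.1 t.2.2) with hH
  have h2 : ∑ t ∈ triples3 n, dot s (v t.1 t.2.1) (v t.2.1 t.2.2) = H := by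
    rw [hH, ← triples_relabel (fun a b w => dot s (v a b) (v a w))
      (fun t => (t.2.1, t.1, t.2.2)) (fun t => (t.2.1, t.1, t.2.2))
      (fun t ht => by
        rw [mem_triples3] at ht ⊢
        exact ⟨ht.1.symm, ht.2.2, ht.2.1⟩)
      (fun t ht => by
        rw [mem_triples3] at ht ⊢
        exact ⟨ht.1.symm, ht.2.2, ht.2.1⟩)
      (fun _ => rfl) (fun _ => rfl)]
    refine Finset.sum_congr rfl (fun t _ => ?_)
    simp only
    rw [hsym t.2.1 t.1]
  have h3 : ∑ t ∈ triples3 n, dot s (v t.1 t.2.2) (v t.2.1 t.2.2) = H := by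
    rw [hH, ← triples_relabel (fun a b w => dot s (v a b) (v a w))
      (fun t => (t.2.2, t.1, t.2.1)) (fun t => (t.2.1, t.2.2, t.1))
      (fun t ht => by
        rw [mem_triples3] at ht ⊢
        exact ⟨ht.2.1.symm, ht.2.2.symm, ht.1⟩)
      (fun t ht => by
        rw [mem_triples3] at ht ⊢
        exact ⟨ht.2.2, ht.1.symm, ht.2.1.symm⟩)
      (fun _ => rfl) (fun _ => rfl)]
    refine Finset.sum_congr rfl (fun t _ => ?_)
    simp only
    rw [hsym t.2.2 t.1, hsym t.2.2 t.2.1]
  have h4 : 0 ≤ ∑ t ∈ triples3 n, (dot s (v t.1 t.2.1) (v t.1 t.2.2) +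
      dot s (v t.1 t.2.1) (v t.2.1 t.2.2) +
      dot s (v t.1 t.2.2) (v t.2.1 t.2.2)) :=
    Finset.sum_nonneg (fun t ht => by
      rw [mem_triples3] at ht
      exact hT ht.1 ht.2.1 ht.2.2)
  rw [Finset.sum_add_distrib, Finset.sum_add_distrib, h2, h3] at h4
  rw [Finset.sum_add_distrib, h2]
  linarith

include hsym in
/-- The abstract form of the argument: nonnegativity of the triple and the quadruple terms give
the lower bound on the square of the sum. -/
theorem two_sumNorm_le
    (hT : ∀ {u v' w : Fin n}, u ≠ v' → u ≠ w → v' ≠ w →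
      0 ≤ dot s (v u v') (v u w) + dot s (v u v') (v v' w) + dot s (v u w) (v v' w))
    (hQ : ∀ {a b w z : Fin n}, a ≠ b → a ≠ w → a ≠ z → b ≠ w → b ≠ z → w ≠ z →
      0 ≤ dot s (v a b) (v w z)) :
    2 * sumNorm s v ≤ dot s (sumOrd v) (sumOrd v) := by
  rw [dot_sumOrd_sumOrd s v hsym]
  have h1 := triple_term_nonneg s v hsym hT
  have h2 : 0 ≤ ∑ q ∈ quads4 n, dot s (v q.1 q.2.1) (v q.2.2.1 q.2.2.2) :=
    Finset.sum_nonneg (fun q hq => by
      rw [mem_quads4] at hq
      obtain ⟨h1, h2, h3, h4, h5, h6⟩ := hq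
      exact hQ h1 h2 h3 h4 h5 h6)
  linarith

end Algebra

end Vale.Agent.Lib.P328
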