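import Vale.Agent.Lib.P328.Defs
import Vale.Agent.Lib.P328.Form
import Vale.Agent.Lib.P335.Commute
import Vale.Agent.Lib.P335.Spectral
import Vale.Agent.Lib.P335.Mat3

/-!
The spectral gap of the row-pair chain on contingency tables from the three-row inequality.
-/

set_option linter.unusedSectionVars false
set_option linter.unusedSimpArgs false

namespace Vale.Agent.Lib.P328

open Finset
open Vale.Agent.Lib.P335 (avg dot fib mean mem_fib self_mem_fib fib_congr avg_congr fib_card_pos
  avg_congr_fun avg_const avg_avg dot_comm dot_sub_left dot_sub_right dot_self_nonneg dot_congr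
  dot_avg_comm avg_filter_block dot_fiberwise avg_comm_of_block gap_of_bochner avg_transport
  dot_transport)

variable {m : ℕ} {C : Type*} [Fintype C] [DecidableEq C]

theorem mem_Tab {r : Fin m → ℕ} {c : C → ℕ} {X : Tb m C} :
    X ∈ Tab r c ↔ (∀ i, rowS X i = r i) ∧ ∀ j, colS X j = c j := by
  simp only [Tab, mem_filter, Fintype.mem_piFinset, mem_range]
  constructor
  · exact fun h => h.2
  · intro h
    refine ⟨fun i j => ?_, h⟩
    have : X i j ≤ rowS X i :=
      Finset.single_le_sum (f := X i) (fun _ _ => Nat.zero_le _) (mem_univ j)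
    rw [h.1 i] at this
    omega

theorem keyP_comm (a b : Fin m) (X : Tb m C) : keyP a b X = keyP b a X := by
  funext i
  simp only [keyP, or_comm]

theorem keyP_eq_iff {a b : Fin m} {X Y : Tb m C} :
    keyP a b X = keyP a b Y ↔ ∀ i, i ≠ a → i ≠ b → X i = Y i := by
  constructor
  · intro h i h1 h2
    have := congrFun h i
    simpa [keyP, h1, h2] using this
  · intro h
    funext i
    unfold keyP
    by_cases h1 : i = a ∨ i = b
    · rw [if_pos h1, if_pos h1]
    · rw [if_neg h1, if_neg h1]
      push Not at h1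
      exact h i h1.1 h1.2

section Residual

variable (r : Fin m → ℕ) (c : C → ℕ) (a b : Fin m)

/-- The fluctuation of `f` with respect to the resampling of the rows `a` and `b`. -/
noncomputable def LL (f : Tb m C → ℝ) : Tb m C → ℝ :=
  fun x => f x - avg (Tab r c) (keyP a b) f x

theorem LL_comm (f : Tb m C → ℝ) : LL r c a b f = LL r c b a f := by
  funext x
  unfold LL
  have : keyP a b = (keyP b a : Tb m C → Tb m C) := by
    funext X
    exact keyP_comm a b X
  rw [this]

theorem avg_add' {X K : Type*} [DecidableEq X] [DecidableEq K] (s : Finset X) (κ : X → K)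
    (f g : X → ℝ) (x : X) :
    avg s κ (fun y => f y + g y) x = avg s κ f x + avg s κ g x := by
  simp only [avg, Finset.sum_add_distrib, add_div]

theorem avg_smul' {X K : Type*} [DecidableEq X] [DecidableEq K] (s : Finset X) (κ : X → K) (c : ℝ)
    (f : X → ℝ) (x : X) :
    avg s κ (fun y => c * f y) x = c * avg s κ f x := by
  simp only [avg, ← Finset.mul_sum, mul_div_assoc]

theorem avg_sub' {X K : Type*} [DecidableEq X] [DecidableEq K] (s : Finset X) (κ : X → K)
    (f g : X → ℝ) (x : X) :
    avg s κ (fun y => f y - g y) x = avg s κ f x - avg s κ g x := by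
  simp only [avg, Finset.sum_sub_distrib, sub_div]

theorem LL_add (f g : Tb m C → ℝ) (x : Tb m C) :
    LL r c a b (fun y => f y + g y) x = LL r c a b f x + LL r c a b g x := by
  simp only [LL]
  rw [avg_add']
  ring

theorem LL_smul (k : ℝ) (f : Tb m C → ℝ) (x : Tb m C) :
    LL r c a b (fun y => k * f y) x = k * LL r c a b f x := by
  simp only [LL]
  rw [avg_smul']
  ring

theorem LL_congr {f g : Tb m C → ℝ} (h : ∀ x ∈ Tab r c, f x = g x) {x : Tb m C}
    (hx : x ∈ Tab r c) : LL r c a b f x = LL r c a b g x := by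
  simp only [LL]
  rw [h x hx, avg_congr_fun h]

theorem LL_sym (f g : Tb m C → ℝ) :
    dot (Tab r c) (LL r c a b f) g = dot (Tab r c) f (LL r c a b g) := by
  unfold LL
  rw [dot_sub_left, dot_sub_right, dot_avg_comm]

theorem LL_const {x : Tb m C} (hx : x ∈ Tab r c) : LL r c a b (fun _ => 1) x = 0 := by
  simp only [LL]
  rw [avg_const _ _ _ hx]
  ring

theorem LL_idem (f : Tb m C → ℝ) {x : Tb m C} (hx : x ∈ Tab r c) :
    LL r c a b (LL r c a b f) x = LL r c a b f x := by
  have e : avg (Tab r c) (keyP a b) (LL r c a b f) x = 0 := by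
    show avg (Tab r c) (keyP a b) (fun y => f y - avg (Tab r c) (keyP a b) f y) x = 0
    rw [avg_sub', avg_avg f hx]
    ring
  show LL r c a b f x - avg (Tab r c) (keyP a b) (LL r c a b f) x = LL r c a b f x
  rw [e]
  ring

theorem dot_LL_self (f : Tb m C → ℝ) :
    dot (Tab r c) f (LL r c a b f) = dot (Tab r c) (LL r c a b f) (LL r c a b f) := by
  rw [LL_sym]
  refine dot_congr (fun _ _ => rfl) (fun x hx => ?_)
  rw [LL_idem r c a b f hx]

end Residual

section Split

theorem sum_split_pair {a b : Fin m} (hab : a ≠ b) (g : Fin m → ℕ) :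
    ∑ i, g i = g a + g b + ∑ i ∈ others a b, g i := by
  have hU : (univ : Finset (Fin m)) = insert a (insert b (others a b)) := by
    ext i
    simp only [others, mem_univ, mem_insert, mem_filter, true_and, true_iff]
    by_cases h1 : i = a
    · exact Or.inl h1
    · by_cases h2 : i = b
      · exact Or.inr (Or.inl h2)
      · exact Or.inr (Or.inr ⟨h1, h2⟩)
  have hbW : b ∉ others a b := by simp [others]
  have haW : a ∉ others a b := by simp [others]
  have haI : a ∉ insert b (others a b) := by
    simp only [mem_insert, not_or]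
    exact ⟨hab, haW⟩
  rw [hU, sum_insert haI, sum_insert hbW]
  ring

theorem mem_others {a b i : Fin m} : i ∈ others a b ↔ i ≠ a ∧ i ≠ b := by
  simp [others]

end Split

section Disjoint

variable {r : Fin m → ℕ} {c : C → ℕ} {a b w z : Fin m}

/-- The block key of two disjoint pairs of rows. -/
def blk4 (a b w z : Fin m) (X : Tb m C) : (Tb m C) × (C → ℕ) :=
  (fun i => if i = a ∨ i = b ∨ i = w ∨ i = z then fun _ => 0 else X i, fun j => X a j + X b j)

theorem blk4_eq_iff {X Y : Tb m C} :
    blk4 a b w z X = blk4 a b w z Y ↔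
      (∀ i, i ≠ a → i ≠ b → i ≠ w → i ≠ z → X i = Y i) ∧ ∀ j, X a j + X b j = Y a j + Y b j := by
  constructor
  · intro h
    have h1 := congrArg Prod.fst h
    have h2 := congrArg Prod.snd h
    refine ⟨fun i h3 h4 h5 h6 => ?_, fun j => congrFun h2 j⟩
    have := congrFun h1 i
    simpa [blk4, h3, h4, h5, h6] using this
  · rintro ⟨h1, h2⟩
    refine Prod.ext ?_ (funext h2)
    funext i
    show (if i = a ∨ i = b ∨ i = w ∨ i = z then fun _ => 0 else X i) =
      (if i = a ∨ i = b ∨ i = w ∨ i = z then fun _ => 0 else Y i)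
    by_cases h3 : i = a ∨ i = b ∨ i = w ∨ i = z
    · rw [if_pos h3, if_pos h3]
    · rw [if_neg h3, if_neg h3]
      push Not at h3
      exact h1 i h3.1 h3.2.1 h3.2.2.1 h3.2.2.2

theorem colS_pair (hab : a ≠ b) (X : Tb m C) (j : C) :
    colS X j = X a j + X b j + ∑ i ∈ others a b, X i j :=
  sum_split_pair hab (fun i => X i j)

/-- Equal columns of the sum of two rows, when everything else agrees. -/
theorem pair_sum_eq (hab : a ≠ b) {X Y : Tb m C} (hX : X ∈ Tab r c) (hY : Y ∈ Tab r c)
    (h : ∀ i, i ≠ a → i ≠ b → X i = Y i) (j : C) : X a j + X b j = Y a j + Y b j := by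
  have h1 := colS_pair hab X j
  have h2 := colS_pair hab Y j
  rw [(mem_Tab.1 hX).2 j] at h1
  rw [(mem_Tab.1 hY).2 j] at h2
  have h3 : ∑ i ∈ others a b, X i j = ∑ i ∈ others a b, Y i j :=
    Finset.sum_congr rfl (fun i hi => by
      rw [mem_others] at hi
      rw [h i hi.1 hi.2])
  omega

theorem cell_count (hab : a ≠ b) (haw : a ≠ w) (haz : a ≠ z) (hbw : b ≠ w) (hbz : b ≠ z)
    {x y : Tb m C} (hx : x ∈ Tab r c) (hy : y ∈ Tab r c) (hb : blk4 a b w z x = blk4 a b w z y) :
    ((Tab r c).filter (fun u => keyP a b u = keyP a b x ∧ keyP w z u = keyP w z y)).card = 1 := by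
  rw [blk4_eq_iff] at hb
  obtain ⟨hb1, hb2⟩ := hb
  let g : Tb m C := fun i => if i = a ∨ i = b then y i else x i
  have hga : g a = y a := by simp [g]
  have hgb : g b = y b := by simp [g]
  have hgo : ∀ i, i ≠ a → i ≠ b → g i = x i := fun i h1 h2 => by simp [g, h1, h2]
  have hgmem : g ∈ Tab r c := by
    rw [mem_Tab]
    constructor
    · intro i
      by_cases h : i = a ∨ i = b
      · have : g i = y i := by simp [g, h]
        simp only [rowS, this]
        exact (mem_Tab.1 hy).1 i
      · have : g i = x i := by simp [g, h]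
        simp only [rowS, this]
        exact (mem_Tab.1 hx).1 i
    · intro j
      rw [colS_pair hab, hga, hgb, ← hb2 j, ← (mem_Tab.1 hx).2 j, colS_pair hab x j]
      congr 1
      exact Finset.sum_congr rfl (fun i hi => by
        rw [mem_others] at hi
        rw [hgo i hi.1 hi.2])
  have hf : (Tab r c).filter (fun u => keyP a b u = keyP a b x ∧ keyP w z u = keyP w z y) = {g} := by
    ext u
    simp only [mem_filter, mem_singleton]
    constructor
    · rintro ⟨_, h1, h2⟩
      rw [keyP_eq_iff] at h1 h2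
      funext i
      by_cases hia : i = a
      · subst hia
        rw [hga, h2 i haw haz]
      · by_cases hib : i = b
        · subst hib
          rw [hgb, h2 i hbw hbz]
        · rw [hgo i hia hib, h1 i hia hib]
    · rintro rfl
      refine ⟨hgmem, ?_, ?_⟩
      · rw [keyP_eq_iff]
        exact fun i h1 h2 => hgo i h1 h2
      · rw [keyP_eq_iff]
        intro i h1 h2
        by_cases hia : i = a
        · subst hia
          exact hga
        · by_cases hib : i = b
          · subst hib
            exact hgb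
          · rw [hgo i hia hib]
            exact hb1 i hia hib h1 h2
  rw [hf, card_singleton]

/-- Resampling two disjoint pairs of rows commute. -/
theorem avg_comm_disjoint (hab : a ≠ b) (haw : a ≠ w) (haz : a ≠ z) (hbw : b ≠ w) (hbz : b ≠ z)
    (hwz : w ≠ z) (f : Tb m C → ℝ) {x : Tb m C} (hx : x ∈ Tab r c) :
    avg (Tab r c) (keyP a b) (avg (Tab r c) (keyP w z) f) x =
      avg (Tab r c) (keyP w z) (avg (Tab r c) (keyP a b) f) x := by
  refine avg_comm_of_block (β := blk4 a b w z) ?_ ?_ (fun _ => 1) (fun _ _ => Nat.one_pos) ?_ f hx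
  · intro u hu v hv huv
    rw [keyP_eq_iff] at huv
    rw [blk4_eq_iff]
    exact ⟨fun i h1 h2 _ _ => huv i h1 h2, pair_sum_eq hab hu hv huv⟩
  · intro u hu v hv huv
    rw [keyP_eq_iff] at huv
    rw [blk4_eq_iff]
    refine ⟨fun i _ _ h3 h4 => huv i h3 h4, fun j => ?_⟩
    rw [huv a haw haz, huv b hbw hbz]
  · intro u hu v hv huv
    exact cell_count hab haw haz hbw hbz hu hv huv

theorem LL_comm_disjoint (hab : a ≠ b) (haw : a ≠ w) (haz : a ≠ z) (hbw : b ≠ w) (hbz : b ≠ z)
    (hwz : w ≠ z) (f : Tb m C → ℝ) {x : Tb m C} (hx : x ∈ Tab r c) :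
    LL r c a b (LL r c w z f) x = LL r c w z (LL r c a b f) x := by
  have h := avg_comm_disjoint hab haw haz hbw hbz hwz f hx
  have e1 : avg (Tab r c) (keyP a b) (LL r c w z f) x =
      avg (Tab r c) (keyP a b) f x - avg (Tab r c) (keyP a b) (avg (Tab r c) (keyP w z) f) x :=
    avg_sub' _ _ _ _ _
  have e2 : avg (Tab r c) (keyP w z) (LL r c a b f) x =
      avg (Tab r c) (keyP w z) f x - avg (Tab r c) (keyP w z) (avg (Tab r c) (keyP a b) f) x :=
    avg_sub' _ _ _ _ _
  show LL r c w z f x - avg (Tab r c) (keyP a b) (LL r c w z f) x =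
    LL r c a b f x - avg (Tab r c) (keyP w z) (LL r c a b f) x
  rw [e1, e2, h]
  simp only [LL]
  ring

/-- The term of two disjoint pairs is nonnegative. -/
theorem quad_nonneg (hab : a ≠ b) (haw : a ≠ w) (haz : a ≠ z) (hbw : b ≠ w) (hbz : b ≠ z)
    (hwz : w ≠ z) (f : Tb m C → ℝ) :
    0 ≤ dot (Tab r c) (LL r c a b f) (LL r c w z f) := by
  have h0 := dot_self_nonneg (Tab r c) (LL r c a b (LL r c w z f))
  have h1 : dot (Tab r c) (LL r c a b (LL r c w z f)) (LL r c a b (LL r c w z f)) =
      dot (Tab r c) (LL r c w z f) (LL r c a b (LL r c a b (LL r c w z f))) := LL_sym r c a b _ _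
  have h2 : dot (Tab r c) (LL r c w z f) (LL r c a b (LL r c a b (LL r c w z f))) =
      dot (Tab r c) (LL r c w z f) (LL r c w z (LL r c a b f)) :=
    dot_congr (fun _ _ => rfl) (fun x hx => by
      rw [LL_idem r c a b _ hx, LL_comm_disjoint hab haw haz hbw hbz hwz f hx])
  have h3 : dot (Tab r c) (LL r c w z f) (LL r c w z (LL r c a b f)) =
      dot (Tab r c) (LL r c w z (LL r c w z f)) (LL r c a b f) := (LL_sym r c w z _ _).symm
  have h4 : dot (Tab r c) (LL r c w z (LL r c w z f)) (LL r c a b f) =
      dot (Tab r c) (LL r c w z f) (LL r c a b f) :=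
    dot_congr (fun x hx => LL_idem r c w z f hx) (fun _ _ => rfl)
  rw [h1, h2, h3, h4, dot_comm] at h0
  exact h0

end Disjoint

end Vale.Agent.Lib.P328
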