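/-!
A checker on lists of integers for the nonnegativity of a quadratic form (exact symmetric
elimination without fractions), and the matrix of the inequality for functions of the rows,
written so that the kernel evaluates them.
-/

namespace Vale.Agent.Lib.P328.Chk

/-- The exact quotient, if it exists. -/
def exDiv (d g : Int) : Option Int :=
  if (d / g) * g = d then some (d / g) else none

/-- One row of the elimination. -/
def zipSub (p a1 g : Int) : List Int → List Int → Option (List Int)
  | [], [] => some []
  | o :: os, b :: bs =>
    match exDiv (p * o - a1 * b) g with
    | some q =>
      match zipSub p a1 g os bs with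
      | some t => some (q :: t)
      | none => none
    | none => none
  | _, _ => none

/-- All the rows of the elimination. -/
def elim (p g : Int) : List Int → List (List Int) → Option (List (List Int))
  | [], [] => some []
  | a1 :: as, (d :: off) :: rows =>
    match exDiv (p * d - a1 * a1) g with
    | some d' =>
      match zipSub p a1 g off as with
      | some off' =>
        match elim p g as rows with
        | some rows' => some ((d' :: off') :: rows')
        | none => none
      | none => none
    | none => none
  | _, _ => none

/-- All entries vanish. -/
def allZero : List Int → Bool
  | [] => true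
  | a :: as => (a == 0) && allZero as

/-- The check that the form of a triangular array is nonnegative. The argument `g` is the previous
pivot. -/
def psdF : Nat → List (List Int) → Int → Bool
  | _, [], _ => true
  | 0, _ :: _, _ => false
  | _ + 1, [] :: _, _ => false
  | n + 1, (p :: a) :: rows, g =>
    if p < 0 then false
    else if p = 0 then allZero a && psdF n rows g
    else
      match elim p g a rows with
      | some rows' => psdF n rows' p
      | none => false

/-- The triangular array of a symmetric function on a list of indices. -/
def mkTri {α : Type} (e : α → α → Int) : List α → List (List Int)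
  | [] => []
  | a :: as => (e a a :: as.map (e a)) :: mkTri e as

/-- All the rows with the given upper bounds and the given sum. -/
def rowsOf : List Nat → Nat → List (List Nat)
  | [], s => if s = 0 then [[]] else []
  | a :: l, s => (List.range (min a s + 1)).flatMap fun v => (rowsOf l (s - v)).map fun t => v :: t

/-- Two rows fit under the upper bounds. -/
def compatL : List Nat → List Nat → List Nat → Bool
  | [], [], [] => true
  | a :: l, x :: xs, y :: ys => Nat.ble (x + y) a && compatL l xs ys
  | _, _, _ => false

/-- An index of the form: the row number, the row, and its number of tables. -/
abbrev Item := Nat × (List Nat × Nat)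

/-- The items of one row number; the degree is computed with the rows of another row number. -/
def itemsOf (l : List Nat) (tag : Nat) (R R' : List (List Nat)) : List Item :=
  R.map fun x => (tag, x, R'.countP fun y => compatL l x y)

/-- The matrix of the form on functions of the rows. -/
def entry (l : List Nat) (Z : Nat) (a b : Item) : Int :=
  (if a.1 = b.1 then (if a.2.1 = b.2.1 then 3 * (Z : Int) * (a.2.2 : Int) else 0)
    else (if compatL l a.2.1 b.2.1 = true then -(3 * (Z : Int)) else 0)) +
    (a.2.2 : Int) * (b.2.2 : Int)

/-- The list of all items. -/
def allItems (l : List Nat) (r0 r1 r2 : Nat) : List Item :=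
  itemsOf l 0 (rowsOf l r0) (rowsOf l r1) ++ itemsOf l 1 (rowsOf l r1) (rowsOf l r2) ++
    itemsOf l 2 (rowsOf l r2) (rowsOf l r0)

/-- The number of tables. -/
def numTables (l : List Nat) (r0 r1 : Nat) : Nat :=
  ((rowsOf l r0).map fun x => (rowsOf l r1).countP fun y => compatL l x y).sum

/-- The check for the margins `l` and `r0, r1, r2`. -/
def checkMargins (l : List Nat) (r0 r1 r2 : Nat) : Bool :=
  psdF (allItems l r0 r1 r2).length
    (mkTri (entry l (numTables l r0 r1)) (allItems l r0 r1 r2)) 1

/-- The partitions of `s` with parts at least `m`, in nondecreasing order. -/
def partsOf : Nat → Nat → Nat → List (List Nat)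
  | 0, s, _ => if s = 0 then [[]] else []
  | fuel + 1, s, m =>
    if s = 0 then [[]]
    else (List.range (s + 1 - m)).flatMap fun a => (partsOf fuel (s - (m + a)) (m + a)).map fun t => (m + a) :: t

/-- The check for all column sums with the given row sums. -/
def checkRows (r0 r1 r2 : Nat) : Bool :=
  (partsOf (r0 + r1 + r2) (r0 + r1 + r2) 1).all fun l => checkMargins l r0 r1 r2

end Vale.Agent.Lib.P328.Chk
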