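import Mathlib
import Vale.Agent.Lib.P328.ChkDefs

/-!
Soundness of the elimination checker.
-/

namespace Vale.Agent.Lib.P328.Chk

/-- The linear form of a list of integers. -/
noncomputable def dotL : List Int → List ℝ → ℝ
  | a :: as, x :: xs => (a : ℝ) * x + dotL as xs
  | _, _ => 0

/-- The quadratic form of a triangular array. -/
noncomputable def tform : List (List Int) → List ℝ → ℝ
  | (d :: off) :: rows, x :: v => (d : ℝ) * x ^ 2 + 2 * x * dotL off v + tform rows v
  | _, _ => 0

theorem exDiv_spec {d g q : Int} (h : exDiv d g = some q) : q * g = d := by
  unfold exDiv at h
  split_ifs at h with h1
  simp only [Option.some.injEq] at h
  rw [← h]
  exact h1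

theorem exDiv_spec_real {d g q : Int} (h : exDiv d g = some q) : (g : ℝ) * q = d := by
  have := exDiv_spec h
  have h2 : ((q * g : Int) : ℝ) = (d : ℝ) := by rw [this]
  push_cast at h2
  linarith

theorem zipSub_spec (p a1 g : Int) : ∀ (os bs t : List Int) (v : List ℝ),
    zipSub p a1 g os bs = some t →
      (g : ℝ) * dotL t v = p * dotL os v - a1 * dotL bs v := by
  intro os
  induction os with
  | nil =>
    intro bs t v h
    cases bs with
    | nil =>
      simp only [zipSub, Option.some.injEq] at h
      subst h
      simp [dotL]
    | cons b bs =>
      simp [zipSub] at h
  | cons o os ih =>
    intro bs t v h
    cases bs with
    | nil => simp [zipSub] at h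
    | cons b bs =>
      simp only [zipSub] at h
      cases h1 : exDiv (p * o - a1 * b) g with
      | none => simp [h1] at h
      | some q =>
        rw [h1] at h
        simp only at h
        cases h2 : zipSub p a1 g os bs with
        | none => simp [h2] at h
        | some t' =>
          rw [h2] at h
          simp only [Option.some.injEq] at h
          subst h
          cases v with
          | nil => simp [dotL]
          | cons x v =>
            have e1 := exDiv_spec_real h1
            have e2 := ih bs t' v h2
            push_cast at e1
            simp only [dotL]
            rw [mul_add, e2]
            have : (g : ℝ) * (q * x) = (g * q) * x := by ring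
            rw [this, e1]
            ring

theorem elim_length (p g : Int) : ∀ (as : List Int) (rows rows' : List (List Int)),
    elim p g as rows = some rows' → rows'.length = as.length := by
  intro as
  induction as with
  | nil =>
    intro rows rows' h
    cases rows with
    | nil =>
      simp only [elim, Option.some.injEq] at h
      subst h
      rfl
    | cons r rows => simp [elim] at h
  | cons a as ih =>
    intro rows rows' h
    cases rows with
    | nil => simp [elim] at h
    | cons r rows =>
      cases r with
      | nil => simp [elim] at h
      | cons d off =>
        simp only [elim] at h
        cases h1 : exDiv (p * d - a * a) g with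
        | none => simp [h1] at h
        | some d' =>
          rw [h1] at h
          simp only at h
          cases h2 : zipSub p a g off as with
          | none => simp [h2] at h
          | some off' =>
            rw [h2] at h
            simp only at h
            cases h3 : elim p g as rows with
            | none => simp [h3] at h
            | some t =>
              rw [h3] at h
              simp only [Option.some.injEq] at h
              subst h
              simp [ih rows t h3]

theorem elim_rows_length (p g : Int) : ∀ (as : List Int) (rows rows' : List (List Int)),
    elim p g as rows = some rows' → rows.length = as.length := by
  intro as
  induction as with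
  | nil =>
    intro rows rows' h
    cases rows with
    | nil => rfl
    | cons r rows => simp [elim] at h
  | cons a as ih =>
    intro rows rows' h
    cases rows with
    | nil => simp [elim] at h
    | cons r rows =>
      cases r with
      | nil => simp [elim] at h
      | cons d off =>
        simp only [elim] at h
        cases h1 : exDiv (p * d - a * a) g with
        | none => simp [h1] at h
        | some d' =>
          rw [h1] at h
          simp only at h
          cases h2 : zipSub p a g off as with
          | none => simp [h2] at h
          | some off' =>
            rw [h2] at h
            simp only at h
            cases h3 : elim p g as rows with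
            | none => simp [h3] at h
            | some t =>
              simp only [List.length_cons, add_left_inj]
              exact ih rows t h3

theorem elim_spec (p g : Int) : ∀ (as : List Int) (rows rows' : List (List Int)) (v : List ℝ),
    elim p g as rows = some rows' → v.length = as.length →
      (g : ℝ) * tform rows' v = p * tform rows v - (dotL as v) ^ 2 := by
  intro as
  induction as with
  | nil =>
    intro rows rows' v h hv
    cases rows with
    | nil =>
      simp only [elim, Option.some.injEq] at h
      subst h
      simp [tform, dotL]
    | cons r rows => simp [elim] at h
  | cons a as ih =>
    intro rows rows' v h hv
    cases rows with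
    | nil => simp [elim] at h
    | cons r rows =>
      cases r with
      | nil => simp [elim] at h
      | cons d off =>
        simp only [elim] at h
        cases h1 : exDiv (p * d - a * a) g with
        | none => simp [h1] at h
        | some d' =>
          rw [h1] at h
          simp only at h
          cases h2 : zipSub p a g off as with
          | none => simp [h2] at h
          | some off' =>
            rw [h2] at h
            simp only at h
            cases h3 : elim p g as rows with
            | none => simp [h3] at h
            | some t =>
              rw [h3] at h
              simp only [Option.some.injEq] at h
              subst h
              cases v with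
              | nil => simp at hv
              | cons x v =>
                simp only [List.length_cons, add_left_inj] at hv
                have e1 := exDiv_spec_real h1
                have e2 := zipSub_spec p a g off as off' v h2
                have e3 := ih rows t v h3 hv
                push_cast at e1
                simp only [tform, dotL]
                have e : (g : ℝ) * ((d' : ℝ) * x ^ 2 + 2 * x * dotL off' v + tform t v) =
                    ((g : ℝ) * d') * x ^ 2 + 2 * x * ((g : ℝ) * dotL off' v) +
                      (g : ℝ) * tform t v := by ring
                rw [e, e1, e2, e3]
                ring

theorem allZero_dotL : ∀ (a : List Int) (v : List ℝ), allZero a = true → dotL a v = 0 := by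
  intro a
  induction a with
  | nil => intro v _; cases v <;> rfl
  | cons b a ih =>
    intro v h
    simp only [allZero, Bool.and_eq_true, beq_iff_eq] at h
    cases v with
    | nil => rfl
    | cons x v =>
      simp only [dotL]
      rw [ih v h.2, h.1]
      simp

/-- Soundness of the checker: the form is nonnegative. -/
theorem psdF_sound : ∀ (n : ℕ) (A : List (List Int)) (g : Int), psdF n A g = true → 0 < g →
    ∀ v : List ℝ, v.length = A.length → 0 ≤ tform A v := by
  intro n
  induction n with
  | zero =>
    intro A g h _ v _
    cases A with
    | nil => cases v <;> simp [tform]
    | cons a A => simp [psdF] at h
  | succ n ih =>
    intro A g h hg v hv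
    cases A with
    | nil => cases v <;> simp [tform]
    | cons r rows =>
      cases r with
      | nil => simp [psdF] at h
      | cons p a =>
        cases v with
        | nil => simp [tform]
        | cons x v =>
          simp only [List.length_cons, add_left_inj] at hv
          simp only [psdF] at h
          split_ifs at h with h1 h2
          · rw [Bool.and_eq_true] at h
            simp only [tform]
            rw [allZero_dotL a v h.1, h2]
            have := ih rows g h.2 hg v hv
            simpa using this
          · have hp : 0 < p := by omega
            cases h3 : elim p g a rows with
            | none => simp [h3] at h
            | some rows' =>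
              rw [h3] at h
              simp only at h
              have hlen := elim_length p g a rows rows' h3
              -- the length of `a` is not needed when the shapes do not match: handle it below
              by_cases hla : v.length = a.length
              · have h4 := ih rows' p h hp v (by rw [hla, hlen])
                have h5 := elim_spec p g a rows rows' v h3 hla
                have hgR : (0 : ℝ) < g := by exact_mod_cast hg
                have hpR : (0 : ℝ) < p := by exact_mod_cast hp
                simp only [tform]
                have h6 : (p : ℝ) * ((p : ℝ) * x ^ 2 + 2 * x * dotL a v + tform rows v) =
                    ((p : ℝ) * x + dotL a v) ^ 2 + (g : ℝ) * tform rows' v := by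
                  rw [h5]
                  ring
                have h7 : 0 ≤ (p : ℝ) * ((p : ℝ) * x ^ 2 + 2 * x * dotL a v + tform rows v) := by
                  rw [h6]
                  have : 0 ≤ (g : ℝ) * tform rows' v := mul_nonneg hgR.le (by
                    simpa using h4)
                  positivity
                exact nonneg_of_mul_nonneg_right h7 hpR
              · exfalso
                -- from the success of the elimination the lengths agree
                have hrows : rows.length = a.length := elim_rows_length p g a rows rows' h3
                exact hla (hv.trans hrows)

section Tri

variable {α : Type} (e : α → α → Int) (val : α → ℝ)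

theorem dotL_map (a : α) : ∀ L : List α,
    dotL (L.map (e a)) (L.map val) = (L.map fun b => (e a b : ℝ) * val b).sum := by
  intro L
  induction L with
  | nil => rfl
  | cons b L ih =>
    simp only [List.map_cons, dotL, List.sum_cons]
    rw [ih]

/-- The form of the triangular array is the double sum. -/
theorem tform_mkTri : ∀ L : List α, (∀ a ∈ L, ∀ b ∈ L, e a b = e b a) →
    tform (mkTri e L) (L.map val) =
      (L.map fun a => (L.map fun b => (e a b : ℝ) * val a * val b).sum).sum := by
  intro L
  induction L with
  | nil => intro _; rfl
  | cons a L ih =>
    intro hsym
    have hsym' : ∀ a ∈ L, ∀ b ∈ L, e a b = e b a := fun x hx y hy =>
      hsym x (List.mem_cons_of_mem _ hx) y (List.mem_cons_of_mem _ hy)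
    simp only [mkTri, List.map_cons, tform, List.sum_cons]
    rw [ih hsym', dotL_map]
    have h1 : ∀ c : α, (L.map fun b => (e c b : ℝ) * val c * val b).sum =
        val c * (L.map fun b => (e c b : ℝ) * val b).sum := by
      intro c
      rw [← List.sum_map_mul_left]
      congr 1
      apply List.map_congr_left
      intro b _
      ring
    have h2 : (L.map fun c => (e c a : ℝ) * val c * val a + (L.map fun b => (e c b : ℝ) * val c * val b).sum).sum =
        (L.map fun c => (e c a : ℝ) * val c * val a).sum +
          (L.map fun c => (L.map fun b => (e c b : ℝ) * val c * val b).sum).sum := by
      rw [List.sum_map_add]
    rw [h2, h1 a]
    have h3 : (L.map fun c => (e c a : ℝ) * val c * val a).sum =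
        val a * (L.map fun b => (e a b : ℝ) * val b).sum := by
      rw [← List.sum_map_mul_left]
      congr 1
      apply List.map_congr_left
      intro b hb
      rw [hsym b (List.mem_cons_of_mem _ hb) a List.mem_cons_self]
      ring
    rw [h3]
    ring

end Tri

end Vale.Agent.Lib.P328.Chk
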