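import Mathlib

/-!
Contingency tables with prescribed margins and the chain which resamples a pair of rows.
-/

namespace Vale.Agent.Lib.P328

open Finset

/-- A table with rows `Fin m` and columns `C` and natural number entries. -/
abbrev Tb (m : ℕ) (C : Type*) := Fin m → C → ℕ

variable {m : ℕ} {C : Type*} [Fintype C] [DecidableEq C]

/-- The sum of row `i`. -/
def rowS (X : Tb m C) (i : Fin m) : ℕ := ∑ j, X i j

/-- The sum of column `j`. -/
def colS (X : Tb m C) (j : C) : ℕ := ∑ i, X i j

/-- The finite set of all tables with row sums `r` and column sums `c`. -/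
def Tab (r : Fin m → ℕ) (c : C → ℕ) : Finset (Tb m C) :=
  (Fintype.piFinset fun i => Fintype.piFinset fun _ => range (r i + 1)).filter
    fun X => (∀ i, rowS X i = r i) ∧ ∀ j, colS X j = c j

/-- The table with rows `a` and `b` erased (replaced by zero). -/
def keyP (a b : Fin m) (X : Tb m C) : Tb m C := fun i => if i = a ∨ i = b then fun _ => 0 else X i

/-- The probability that the row-pair chain moves from `x` to `y`: choose an ordered pair `(a, b)` of
distinct rows uniformly among the `m * (m - 1)` pairs, and then choose `y` uniformly among the tables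
in `Tab r c` which agree with `x` outside the rows `a` and `b`. -/
noncomputable def rowKernel (r : Fin m → ℕ) (c : C → ℕ) (x y : Tb m C) : ℝ :=
  (1 / ((m : ℝ) * ((m : ℝ) - 1))) * ∑ a : Fin m, ∑ b ∈ univ.erase a,
    if y ∈ Tab r c ∧ keyP a b y = keyP a b x then
      1 / (((Tab r c).filter fun z => keyP a b z = keyP a b x).card : ℝ)
    else 0

/-- The law at time `t` of the row-pair chain started at `x`. -/
noncomputable def rowLaw (r : Fin m → ℕ) (c : C → ℕ) (x : Tb m C) : ℕ → Tb m C → ℝ
  | 0, y => if y = x then 1 else 0
  | t + 1, y => ∑ z ∈ Tab r c, rowLaw r c x t z * rowKernel r c z y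

/-- The total variation distance of `μ` from the uniform law on `Tab r c`. -/
noncomputable def tvUnif (r : Fin m → ℕ) (c : C → ℕ) (μ : Tb m C → ℝ) : ℝ :=
  (1 / 2) * ∑ y ∈ Tab r c, |μ y - 1 / ((Tab r c).card : ℝ)|

end Vale.Agent.Lib.P328
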