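import Vale.Agent.Lib.P328.TabSum
import Vale.Agent.Lib.P328.ChkSound

/-!
The lists of rows of the checker and the finite sets of rows of the tables.
-/

set_option linter.unusedSectionVars false
set_option linter.unusedSimpArgs false

namespace Vale.Agent.Lib.P328

open Finset
open Chk

theorem mem_rowsOf_cons {a : ℕ} {l : List ℕ} {s : ℕ} {x : List ℕ} :
    x ∈ rowsOf (a :: l) s ↔ ∃ v, v ≤ a ∧ v ≤ s ∧ ∃ t ∈ rowsOf l (s - v), v :: t = x := by
  simp only [rowsOf, List.mem_flatMap, List.mem_range, List.mem_map]
  constructor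
  · rintro ⟨v, hv, t, ht, rfl⟩
    have : v < min a s + 1 := hv
    exact ⟨v, by omega, by omega, t, ht, rfl⟩
  · rintro ⟨v, h1, h2, t, ht, rfl⟩
    exact ⟨v, by omega, t, ht, rfl⟩

theorem rowsOf_length : ∀ (l : List ℕ) (s : ℕ) (x : List ℕ), x ∈ rowsOf l s → x.length = l.length := by
  intro l
  induction l with
  | nil =>
    intro s x hx
    simp only [rowsOf] at hx
    split_ifs at hx
    · simp only [List.mem_singleton] at hx
      rw [hx]
    · simp at hx
  | cons a l ih =>
    intro s x hx
    obtain ⟨v, _, _, t, ht, rfl⟩ := mem_rowsOf_cons.1 hx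
    simp [ih _ _ ht]

theorem rowsOf_nodup : ∀ (l : List ℕ) (s : ℕ), (rowsOf l s).Nodup := by
  intro l
  induction l with
  | nil =>
    intro s
    simp only [rowsOf]
    split_ifs <;> simp
  | cons a l ih =>
    intro s
    simp only [rowsOf]
    rw [List.nodup_flatMap]
    constructor
    · intro v _
      refine (ih _).map ?_
      intro t t' h
      exact (List.cons.inj h).2
    · refine List.Pairwise.imp ?_ (List.pairwise_lt_range (n := min a s + 1))
      intro v w hvw
      show List.Disjoint _ _
      intro x hx hx'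
      simp only [List.mem_map] at hx hx'
      obtain ⟨t, _, rfl⟩ := hx
      obtain ⟨t', _, h⟩ := hx'
      have := (List.cons.inj h).1
      omega

theorem mem_rowsOf_ofFn : ∀ {k : ℕ} (c f : Fin k → ℕ) (s : ℕ),
    List.ofFn f ∈ rowsOf (List.ofFn c) s ↔ (∀ j, f j ≤ c j) ∧ ∑ j, f j = s := by
  intro k
  induction k with
  | zero =>
    intro c f s
    simp only [List.ofFn_zero, rowsOf, Finset.univ_eq_empty, Finset.sum_empty]
    by_cases hs : s = 0
    · simp [hs]
    · simp [hs, Ne.symm hs]
  | succ k ih =>
    intro c f s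
    rw [List.ofFn_succ, List.ofFn_succ, mem_rowsOf_cons, Fin.sum_univ_succ, Fin.forall_fin_succ]
    constructor
    · rintro ⟨v, h1, h2, t, ht, h3⟩
      obtain ⟨h4, h5⟩ := List.cons.inj h3
      subst h4
      rw [h5, ih] at ht
      refine ⟨⟨h1, ht.1⟩, ?_⟩
      omega
    · rintro ⟨⟨h1, h2⟩, h3⟩
      refine ⟨f 0, h1, by omega, _, ?_, rfl⟩
      rw [ih]
      exact ⟨h2, by omega⟩

/-- The function of a list. -/
def fromL (k : ℕ) (x : List ℕ) : Fin k → ℕ := fun j => x.getD j 0

theorem fromL_ofFn {k : ℕ} (f : Fin k → ℕ) : fromL k (List.ofFn f) = f := by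
  funext j
  simp [fromL, List.getD_eq_getElem?_getD]

theorem ofFn_fromL {k : ℕ} {x : List ℕ} (h : x.length = k) : List.ofFn (fromL k x) = x := by
  subst h
  apply List.ext_getElem
  · simp
  · intro i h1 h2
    simp [fromL, List.getD_eq_getElem?_getD, h2]

theorem compatL_ofFn : ∀ {k : ℕ} (c x y : Fin k → ℕ),
    compatL (List.ofFn c) (List.ofFn x) (List.ofFn y) = true ↔ ∀ j, x j + y j ≤ c j := by
  intro k
  induction k with
  | zero =>
    intro c x y
    simp [compatL]
  | succ k ih =>
    intro c x y
    simp only [List.ofFn_succ, compatL, Bool.and_eq_true]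
    rw [Fin.forall_fin_succ, ih, Nat.ble_eq]

theorem compatL_symm : ∀ (l x y : List ℕ), compatL l x y = compatL l y x := by
  intro l
  induction l with
  | nil =>
    intro x y
    cases x <;> cases y <;> rfl
  | cons a l ih =>
    intro x y
    cases x with
    | nil => cases y <;> rfl
    | cons b x =>
      cases y with
      | nil => rfl
      | cons e y =>
        simp only [compatL]
        rw [ih, Nat.add_comm]

section Sums

variable {k : ℕ} (c : Fin k → ℕ)

theorem image_RowsF (s : ℕ) :
    (RowsF c s).image List.ofFn = (rowsOf (List.ofFn c) s).toFinset := by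
  ext x
  simp only [mem_image, List.mem_toFinset, mem_RowsF]
  constructor
  · rintro ⟨f, hf, rfl⟩
    exact (mem_rowsOf_ofFn c f s).2 hf
  · intro hx
    have hlen : x.length = k := by
      rw [rowsOf_length _ _ _ hx]
      simp
    refine ⟨fromL k x, ?_, ofFn_fromL hlen⟩
    rw [← mem_rowsOf_ofFn c, ofFn_fromL hlen]
    exact hx

theorem sum_rowsOf {M : Type*} [AddCommMonoid M] (s : ℕ) (g : List ℕ → M) :
    ((rowsOf (List.ofFn c) s).map g).sum = ∑ f ∈ RowsF c s, g (List.ofFn f) := by
  rw [← List.sum_toFinset g (rowsOf_nodup _ _), ← image_RowsF,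
    Finset.sum_image (fun a _ b _ h => List.ofFn_injective h)]

theorem countP_eq (s : ℕ) (x : Fin k → ℕ) :
    (rowsOf (List.ofFn c) s).countP (fun y => compatL (List.ofFn c) (List.ofFn x) y) = degF c s x := by
  have h1 : ∀ (L : List (List ℕ)) (p : List ℕ → Bool), L.countP p =
      (L.map fun y => if p y = true then 1 else 0).sum := by
    intro L p
    induction L with
    | nil => rfl
    | cons a L ih =>
      simp only [List.countP_cons, List.map_cons, List.sum_cons]
      rw [ih]
      ring
  rw [h1, sum_rowsOf]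
  unfold degF
  rw [Finset.card_filter]
  refine Finset.sum_congr rfl (fun y _ => ?_)
  simp only [compatL_ofFn]
  congr

end Sums

end Vale.Agent.Lib.P328
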