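import Vale.Agent.Lib.P328.ChkDefs

/-!
The kernel check for row sums at most two.
-/

namespace Vale.Agent.Lib.P328.Chk

/-- The check for all row sums at most `R`. -/
def checkUpTo (R : Nat) : Bool :=
  (List.range (R + 1)).all fun a => (List.range (R + 1)).all fun b => (List.range (R + 1)).all fun d =>
    checkRows a b d

theorem checkUpTo_two : checkUpTo 2 = true := by
  decide +kernel

end Vale.Agent.Lib.P328.Chk
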