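import Vale.Agent.Lib.P328.Triple

/-!
Connectivity of tables under moves in two rows, and the spectral gap of the row-pair chain.
-/

set_option linter.unusedSectionVars false
set_option linter.unusedSimpArgs false

namespace Vale.Agent.Lib.P328

open Finset
open Vale.Agent.Lib.P335 (avg dot fib mean mem_fib self_mem_fib fib_congr avg_congr fib_card_pos
  avg_congr_fun avg_const avg_avg dot_comm dot_sub_left dot_sub_right dot_self_nonneg dot_congr
  dot_avg_comm avg_filter_block dot_fiberwise avg_comm_of_block gap_of_bochner avg_transport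
  dot_transport)

variable {m : ℕ} {C : Type*} [Fintype C] [DecidableEq C]

section Connect

/-- The total positive excess of `X` over `Y`. -/
def excess (X Y : Tb m C) : ℕ := ∑ p, ∑ q, (X p q - Y p q)

theorem sum_ind_row (p i : Fin m) (l : C) :
    ∑ q, (if p = i ∧ q = l then 1 else 0) = if p = i then 1 else 0 := by
  by_cases h : p = i
  · simp [h]
  · simp [h]

theorem sum_ind_col (q l : C) (i : Fin m) :
    ∑ p, (if p = i ∧ q = l then 1 else 0) = if q = l then 1 else 0 := by
  by_cases h : q = l
  · simp [h]
  · simp [h]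

theorem sum_ind_all (i : Fin m) (l : C) :
    ∑ p, ∑ q, (if p = i ∧ q = l then 1 else 0) = 1 := by
  simp only [sum_ind_row]
  simp

/-- The move on the four cells `(i,j) (i,l) (k,l) (k,j)`. -/
def moveT (i k : Fin m) (j l : C) (X : Tb m C) : Tb m C := fun p q =>
  X p q + ((if p = i ∧ q = l then 1 else 0) + (if p = k ∧ q = j then 1 else 0)) -
    ((if p = i ∧ q = j then 1 else 0) + (if p = k ∧ q = l then 1 else 0))

theorem moveT_add {i k : Fin m} {j l : C} (hik : i ≠ k) {X : Tb m C} (h1 : 0 < X i j)
    (h2 : 0 < X k l) (p : Fin m) (q : C) :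
    moveT i k j l X p q + ((if p = i ∧ q = j then 1 else 0) + (if p = k ∧ q = l then 1 else 0)) =
      X p q + ((if p = i ∧ q = l then 1 else 0) + (if p = k ∧ q = j then 1 else 0)) := by
  have hle : ((if p = i ∧ q = j then 1 else 0) + (if p = k ∧ q = l then 1 else 0)) ≤ X p q := by
    by_cases hpi : p = i
    · subst hpi
      by_cases hq : q = j
      · subst hq
        simp [hik]
        omega
      · simp [hq, hik]
    · by_cases hpk : p = k
      · subst hpk
        by_cases hq : q = l
        · subst hq
          simp [hpi]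
          omega
        · simp [hq, hpi]
      · simp [hpi, hpk]
  unfold moveT
  omega

theorem moveT_mem {r : Fin m → ℕ} {c : C → ℕ} {i k : Fin m} {j l : C} (hik : i ≠ k)
    {X : Tb m C} (hX : X ∈ Tab r c) (h1 : 0 < X i j) (h2 : 0 < X k l) :
    moveT i k j l X ∈ Tab r c := by
  rw [mem_Tab]
  constructor
  · intro p
    have h := Finset.sum_congr rfl (fun q (_ : q ∈ (univ : Finset C)) => moveT_add hik h1 h2 p q)
    simp only [Finset.sum_add_distrib, sum_ind_row] at h
    have h3 := (mem_Tab.1 hX).1 p
    unfold rowS at h3 ⊢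
    omega
  · intro q
    have h := Finset.sum_congr rfl (fun p (_ : p ∈ (univ : Finset (Fin m))) =>
      moveT_add hik h1 h2 p q)
    simp only [Finset.sum_add_distrib, sum_ind_col] at h
    have h3 := (mem_Tab.1 hX).2 q
    unfold colS at h3 ⊢
    omega

theorem keyP_moveT {i k : Fin m} {j l : C} (X : Tb m C) :
    keyP i k (moveT i k j l X) = keyP i k X := by
  rw [keyP_eq_iff]
  intro p h1 h2
  funext q
  simp [moveT, h1, h2]

theorem excess_moveT {i k : Fin m} {j l : C} (hik : i ≠ k) (hjl : j ≠ l) {X Y : Tb m C}
    (h1 : Y i j < X i j) (h2 : Y k l < X k l) (h3 : X i l < Y i l) :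
    excess (moveT i k j l X) Y < excess X Y := by
  have hp : ∀ p q, (moveT i k j l X p q - Y p q) + ((if p = i ∧ q = j then 1 else 0) +
      (if p = k ∧ q = l then 1 else 0)) ≤ (X p q - Y p q) + (if p = k ∧ q = j then 1 else 0) := by
    intro p q
    have hadd := moveT_add hik (lt_of_le_of_lt (Nat.zero_le _) h1)
      (lt_of_le_of_lt (Nat.zero_le _) h2) p q
    by_cases hpi : p = i
    · subst hpi
      by_cases hqj : q = j
      · subst hqj
        simp only [hik, hjl, and_true, and_false, if_true, if_false, true_and, false_and] at hadd ⊢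
        omega
      · by_cases hql : q = l
        · subst hql
          simp only [hik, hqj, and_true, and_false, if_true, if_false, true_and, false_and] at hadd ⊢
          omega
        · simp only [hik, hqj, hql, and_true, and_false, if_true, if_false, true_and,
            false_and] at hadd ⊢
          omega
    · by_cases hpk : p = k
      · subst hpk
        by_cases hqj : q = j
        · subst hqj
          simp only [hpi, hjl, and_true, and_false, if_true, if_false, true_and, false_and] at hadd ⊢
          omega
        · by_cases hql : q = l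
          · subst hql
            simp only [hpi, hqj, and_true, and_false, if_true, if_false, true_and, false_and] at hadd ⊢
            omega
          · simp only [hpi, hqj, hql, and_true, and_false, if_true, if_false, true_and,
              false_and] at hadd ⊢
            omega
      · simp only [hpi, hpk, and_true, and_false, if_true, if_false, true_and,
          false_and] at hadd ⊢
        omega
  have hs : ∑ p, ∑ q, ((moveT i k j l X p q - Y p q) + ((if p = i ∧ q = j then 1 else 0) +
      (if p = k ∧ q = l then 1 else 0))) ≤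
      ∑ p, ∑ q, ((X p q - Y p q) + (if p = k ∧ q = j then 1 else 0)) :=
    Finset.sum_le_sum (fun p _ => Finset.sum_le_sum (fun q _ => hp p q))
  simp only [Finset.sum_add_distrib, sum_ind_all] at hs
  unfold excess
  omega

/-- Any two different tables admit a move from the first which gets closer to the second. -/
theorem exists_move {r : Fin m → ℕ} {c : C → ℕ} {X Y : Tb m C} (hX : X ∈ Tab r c)
    (hY : Y ∈ Tab r c) (hne : X ≠ Y) :
    ∃ i k, i ≠ k ∧ ∃ X' ∈ Tab r c, keyP i k X' = keyP i k X ∧ excess X' Y < excess X Y := by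
  -- a cell where `X` exceeds `Y`
  have h1 : ∃ i j, Y i j < X i j := by
    by_contra hcon
    push Not at hcon
    apply hne
    funext i j
    by_contra hij
    have hlt : X i j < Y i j := lt_of_le_of_ne (hcon i j) hij
    have hs : ∑ q, X i q < ∑ q, Y i q :=
      Finset.sum_lt_sum (fun q _ => hcon i q) ⟨j, mem_univ j, hlt⟩
    have e1 := (mem_Tab.1 hX).1 i
    have e2 := (mem_Tab.1 hY).1 i
    unfold rowS at e1 e2
    omega
  obtain ⟨i, j, hij⟩ := h1
  -- a cell in the same row where `Y` exceeds `X`
  have h2 : ∃ l, X i l < Y i l := by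
    by_contra hcon
    push Not at hcon
    have hs : ∑ q, Y i q < ∑ q, X i q :=
      Finset.sum_lt_sum (fun q _ => hcon q) ⟨j, mem_univ j, hij⟩
    have e1 := (mem_Tab.1 hX).1 i
    have e2 := (mem_Tab.1 hY).1 i
    unfold rowS at e1 e2
    omega
  obtain ⟨l, hil⟩ := h2
  have hjl : j ≠ l := by
    rintro rfl
    omega
  -- a cell in the same column where `X` exceeds `Y`
  have h3 : ∃ k, Y k l < X k l := by
    by_contra hcon
    push Not at hcon
    have hs : ∑ p, X p l < ∑ p, Y p l :=
      Finset.sum_lt_sum (fun p _ => hcon p) ⟨i, mem_univ i, hil⟩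
    have e1 := (mem_Tab.1 hX).2 l
    have e2 := (mem_Tab.1 hY).2 l
    unfold colS at e1 e2
    omega
  obtain ⟨k, hkl⟩ := h3
  have hik : i ≠ k := by
    rintro rfl
    omega
  exact ⟨i, k, hik, moveT i k j l X, moveT_mem hik hX (by omega) (by omega), keyP_moveT X,
    excess_moveT hik hjl hij hkl hil⟩

/-- A function which does not change under moves in two rows is constant. -/
theorem const_of_invariant {r : Fin m → ℕ} {c : C → ℕ} {α : Type*} (F : Tb m C → α)
    (hF : ∀ i k, i ≠ k → ∀ X ∈ Tab r c, ∀ Y ∈ Tab r c, keyP i k X = keyP i k Y → F X = F Y) :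
    ∀ X ∈ Tab r c, ∀ Y ∈ Tab r c, F X = F Y := by
  intro X hX Y hY
  induction hn : excess X Y using Nat.strong_induction_on generalizing X with
  | _ n ih =>
    by_cases hne : X = Y
    · rw [hne]
    · obtain ⟨i, k, hik, X', hX', hk, hlt⟩ := exists_move hX hY hne
      rw [hF i k hik X hX X' hX' hk.symm]
      exact ih _ (hn ▸ hlt) X' hX' rfl

end Connect

section Gap

variable (r : Fin m → ℕ) (c : C → ℕ)

/-- The sum of the residuals over ordered pairs of rows. -/
noncomputable def AA (f : Tb m C → ℝ) : Tb m C → ℝ := sumOrd (fun a b => LL r c a b f)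

theorem dot_f_AA (f : Tb m C → ℝ) :
    dot (Tab r c) f (AA r c f) = sumNorm (Tab r c) (fun a b => LL r c a b f) := by
  unfold AA sumNorm
  rw [dot_sumOrd_right]
  exact Finset.sum_congr rfl (fun a _ => Finset.sum_congr rfl (fun b _ => dot_LL_self r c a b f))

theorem sumNorm_nonneg (f : Tb m C → ℝ) : 0 ≤ sumNorm (Tab r c) (fun a b => LL r c a b f) :=
  Finset.sum_nonneg (fun _ _ => Finset.sum_nonneg (fun _ _ => dot_self_nonneg _ _))

variable {r c}

/-- The main inequality for the operator `AA`. -/
theorem bochner_AA (h3 : AllTriples r c) (f : Tb m C → ℝ) :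
    2 * dot (Tab r c) f (AA r c f) ≤ dot (Tab r c) (AA r c f) (AA r c f) := by
  rw [dot_f_AA]
  exact two_sumNorm_le (Tab r c) (fun a b => LL r c a b f) (fun a b => LL_comm r c a b f)
    (fun {u v w} huv huw hvw => triple_nonneg h3 f huv huw hvw)
    (fun {a b w z} h1 h2 h3' h4 h5 h6 => quad_nonneg h1 h2 h3' h4 h5 h6 f)

/-- The kernel of `AA` consists of the functions constant on the tables. -/
theorem kernel_AA (f : Tb m C → ℝ) (hk : ∀ x ∈ Tab r c, AA r c f x = 0) :
    ∀ x ∈ Tab r c, ∀ y ∈ Tab r c, f x = f y := by
  have h0 : sumNorm (Tab r c) (fun a b => LL r c a b f) = 0 := by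
    rw [← dot_f_AA]
    unfold dot
    exact Finset.sum_eq_zero (fun x hx => by rw [hk x hx]; simp)
  have h1 : ∀ a, ∀ b ∈ univ.erase a, dot (Tab r c) (LL r c a b f) (LL r c a b f) = 0 := by
    intro a b hb
    unfold sumNorm at h0
    have := (Finset.sum_eq_zero_iff_of_nonneg
      (fun a _ => Finset.sum_nonneg (fun b _ => dot_self_nonneg (Tab r c) (LL r c a b f)))).1 h0 a
        (mem_univ a)
    exact (Finset.sum_eq_zero_iff_of_nonneg
      (fun b _ => dot_self_nonneg (Tab r c) (LL r c a b f))).1 this b hb
  have h2 : ∀ a b, a ≠ b → ∀ x ∈ Tab r c, f x = avg (Tab r c) (keyP a b) f x := by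
    intro a b hab x hx
    have := h1 a b (mem_erase.2 ⟨hab.symm, mem_univ b⟩)
    unfold dot at this
    have h3 := (Finset.sum_eq_zero_iff_of_nonneg (fun y _ => mul_self_nonneg _)).1 this x hx
    have h4 := mul_self_eq_zero.1 h3
    simp only [LL] at h4
    linarith
  refine const_of_invariant f (fun i k hik X hX Y hY hk => ?_)
  rw [h2 i k hik X hX, h2 i k hik Y hY]
  exact avg_congr f hk

/-- The spectral gap. -/
theorem gap_AA (h3 : AllTriples r c) (f : Tb m C → ℝ) :
    2 * dot (Tab r c) (fun x => f x - mean (Tab r c) f) (fun x => f x - mean (Tab r c) f) ≤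
      dot (Tab r c) f (AA r c f) := by
  refine gap_of_bochner (Tab r c) (AA r c)
    (fun f g x _ => by
      simp only [AA, sumOrd, LL_add, Finset.sum_add_distrib])
    (fun k f x _ => by
      simp only [AA, sumOrd, LL_smul, Finset.mul_sum])
    (fun f g h x hx => by
      simp only [AA, sumOrd]
      exact Finset.sum_congr rfl (fun a _ => Finset.sum_congr rfl
        (fun b _ => LL_congr r c a b h hx)))
    (fun f g => by
      unfold AA
      rw [dot_sumOrd_left, dot_sumOrd_right]
      exact Finset.sum_congr rfl (fun a _ => Finset.sum_congr rfl (fun b _ => LL_sym r c a b f g)))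
    (fun x hx => by
      simp only [AA, sumOrd]
      exact Finset.sum_eq_zero (fun a _ => Finset.sum_eq_zero (fun b _ => LL_const r c a b hx)))
    (fun f => by
      rw [dot_f_AA]
      exact sumNorm_nonneg r c f)
    (fun f hk => kernel_AA f hk)
    (c := 2) (by norm_num)
    (fun f => bochner_AA h3 f) f

end Gap

end Vale.Agent.Lib.P328
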