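import Vale.Agent.Lib.P328.Enum

/-!
From the result of the checker to the inequality for functions of the rows.
-/

set_option linter.unusedSectionVars false
set_option linter.unusedSimpArgs false

namespace Vale.Agent.Lib.P328

open Finset
open Chk

/-- The row index of a tag. -/
def tagF (n : ℕ) : Fin 3 := if n = 0 then 0 else if n = 1 then 1 else 2

/-- The double sum over two lists. -/
noncomputable def SS {α : Type} (e : α → α → Int) (val : α → ℝ) (X Y : List α) : ℝ :=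
  (X.map fun a => (Y.map fun b => (e a b : ℝ) * val a * val b).sum).sum

theorem SS_append_left {α : Type} (e : α → α → Int) (val : α → ℝ) (X X' Y : List α) :
    SS e val (X ++ X') Y = SS e val X Y + SS e val X' Y := by
  simp [SS, List.map_append, List.sum_append]

theorem SS_append_right {α : Type} (e : α → α → Int) (val : α → ℝ) (X Y Y' : List α) :
    SS e val X (Y ++ Y') = SS e val X Y + SS e val X Y' := by
  simp only [SS, List.map_append, List.sum_append]
  rw [List.sum_map_add]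

variable {k : ℕ} (c : Fin k → ℕ)

section Blocks

variable (Z : ℕ) (u w : (Fin k → ℕ) → ℝ)

/-- The value of an item. -/
noncomputable def valI (φ : Fin 3 → (Fin k → ℕ) → ℝ) (a : Item) : ℝ := φ (tagF a.1) (fromL k a.2.1)

theorem block_sum (φ : Fin 3 → (Fin k → ℕ) → ℝ) (ti tk si si' sk sk' : ℕ) :
    SS (entry (List.ofFn c) Z) (valI φ)
        (itemsOf (List.ofFn c) ti (rowsOf (List.ofFn c) si) (rowsOf (List.ofFn c) si'))
        (itemsOf (List.ofFn c) tk (rowsOf (List.ofFn c) sk) (rowsOf (List.ofFn c) sk')) =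
      ∑ f ∈ RowsF c si, ∑ g ∈ RowsF c sk,
        (entry (List.ofFn c) Z (ti, List.ofFn f, degF c si' f) (tk, List.ofFn g, degF c sk' g) : ℝ) *
          φ (tagF ti) f * φ (tagF tk) g := by
  unfold SS itemsOf
  simp only [List.map_map]
  rw [sum_rowsOf]
  refine Finset.sum_congr rfl (fun f _ => ?_)
  simp only [Function.comp]
  rw [sum_rowsOf]
  refine Finset.sum_congr rfl (fun g _ => ?_)
  simp only [valI, fromL_ofFn, countP_eq, Function.comp]

theorem entry_same (t : ℕ) (f g : Fin k → ℕ) (d d' : ℕ) :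
    (entry (List.ofFn c) Z (t, List.ofFn f, d) (t, List.ofFn g, d') : ℝ) =
      (if f = g then 3 * (Z : ℝ) * d else 0) + (d : ℝ) * d' := by
  unfold entry
  simp only [if_true, List.ofFn_inj]
  split_ifs <;> push_cast <;> ring

theorem entry_diff {ti tk : ℕ} (h : ti ≠ tk) (f g : Fin k → ℕ) (d d' : ℕ) :
    (entry (List.ofFn c) Z (ti, List.ofFn f, d) (tk, List.ofFn g, d') : ℝ) =
      (if ∀ j, f j + g j ≤ c j then -(3 * (Z : ℝ)) else 0) + (d : ℝ) * d' := by
  unfold entry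
  simp only [h, if_false, compatL_ofFn]
  split_ifs <;> push_cast <;> ring

theorem block_same (φ : Fin 3 → (Fin k → ℕ) → ℝ) (t s s' : ℕ) :
    SS (entry (List.ofFn c) Z) (valI φ)
        (itemsOf (List.ofFn c) t (rowsOf (List.ofFn c) s) (rowsOf (List.ofFn c) s'))
        (itemsOf (List.ofFn c) t (rowsOf (List.ofFn c) s) (rowsOf (List.ofFn c) s')) =
      3 * (Z : ℝ) * ∑ f ∈ RowsF c s, (degF c s' f : ℝ) * φ (tagF t) f ^ 2 +
        (∑ f ∈ RowsF c s, (degF c s' f : ℝ) * φ (tagF t) f) ^ 2 := by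
  rw [block_sum, sq (∑ f ∈ RowsF c s, (degF c s' f : ℝ) * φ (tagF t) f), Finset.sum_mul_sum,
    Finset.mul_sum, ← Finset.sum_add_distrib]
  refine Finset.sum_congr rfl (fun f hf => ?_)
  simp only [entry_same]
  have h1 : ∑ g ∈ RowsF c s, ((if f = g then 3 * (Z : ℝ) * (degF c s' f : ℝ) else 0) +
      (degF c s' f : ℝ) * (degF c s' g : ℝ)) * φ (tagF t) f * φ (tagF t) g =
      ∑ g ∈ RowsF c s, ((if f = g then 3 * (Z : ℝ) * (degF c s' f : ℝ) * φ (tagF t) f * φ (tagF t) g else 0) +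
      ((degF c s' f : ℝ) * φ (tagF t) f) * ((degF c s' g : ℝ) * φ (tagF t) g)) := by
    refine Finset.sum_congr rfl (fun g _ => ?_)
    split_ifs <;> ring
  rw [h1, Finset.sum_add_distrib, Finset.sum_ite_eq, if_pos hf]
  congr 1
  ring

theorem block_diff (φ : Fin 3 → (Fin k → ℕ) → ℝ) {ti tk : ℕ} (h : ti ≠ tk) (si si' sk sk' : ℕ) :
    SS (entry (List.ofFn c) Z) (valI φ)
        (itemsOf (List.ofFn c) ti (rowsOf (List.ofFn c) si) (rowsOf (List.ofFn c) si'))
        (itemsOf (List.ofFn c) tk (rowsOf (List.ofFn c) sk) (rowsOf (List.ofFn c) sk')) =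
      -(3 * (Z : ℝ)) * ∑ f ∈ RowsF c si, ∑ g ∈ RowsF c sk,
          (if ∀ j, f j + g j ≤ c j then φ (tagF ti) f * φ (tagF tk) g else 0) +
        (∑ f ∈ RowsF c si, (degF c si' f : ℝ) * φ (tagF ti) f) *
          (∑ g ∈ RowsF c sk, (degF c sk' g : ℝ) * φ (tagF tk) g) := by
  rw [block_sum, Finset.sum_mul_sum, Finset.mul_sum, ← Finset.sum_add_distrib]
  refine Finset.sum_congr rfl (fun f _ => ?_)
  rw [Finset.mul_sum, ← Finset.sum_add_distrib]
  refine Finset.sum_congr rfl (fun g _ => ?_)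
  rw [entry_diff c Z h]
  split_ifs <;> ring

end Blocks

theorem mem_allItems {l : List ℕ} {r0 r1 r2 : ℕ} {a : Item} (h : a ∈ allItems l r0 r1 r2) :
    (a.1 = 0 ∧ a.2.2 = (rowsOf l r1).countP (fun y => compatL l a.2.1 y)) ∨
    (a.1 = 1 ∧ a.2.2 = (rowsOf l r2).countP (fun y => compatL l a.2.1 y)) ∨
    (a.1 = 2 ∧ a.2.2 = (rowsOf l r0).countP (fun y => compatL l a.2.1 y)) := by
  simp only [allItems, itemsOf, List.mem_append, List.mem_map] at h
  rcases h with (⟨x, _, rfl⟩ | ⟨x, _, rfl⟩) | ⟨x, _, rfl⟩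
  · exact Or.inl ⟨rfl, rfl⟩
  · exact Or.inr (Or.inl ⟨rfl, rfl⟩)
  · exact Or.inr (Or.inr ⟨rfl, rfl⟩)

theorem entry_symm {l : List ℕ} {r0 r1 r2 Z : ℕ} {a b : Item} (ha : a ∈ allItems l r0 r1 r2)
    (hb : b ∈ allItems l r0 r1 r2) : entry l Z a b = entry l Z b a := by
  have hA := mem_allItems ha
  have hB := mem_allItems hb
  unfold entry
  by_cases h1 : a.1 = b.1
  · rw [if_pos h1, if_pos h1.symm]
    by_cases h2 : a.2.1 = b.2.1
    · rw [if_pos h2, if_pos h2.symm]
      have h3 : a.2.2 = b.2.2 := by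
        rcases hA with hA | hA | hA <;> rcases hB with hB | hB | hB <;>
          first
          | (exfalso; omega)
          | (rw [hA.2, hB.2, h2])
      rw [h3]
    · rw [if_neg h2, if_neg (Ne.symm h2)]
      ring
  · rw [if_neg h1, if_neg (Ne.symm h1), compatL_symm]
    ring

theorem sum_tab_pair' {r : Fin 3 → ℕ} {i k' t : Fin 3} (hik : i ≠ k') (hit : i ≠ t) (hkt : k' ≠ t)
    (hsum : ∑ j, c j = ∑ a, r a) (u w : (Fin k → ℕ) → ℝ) :
    ∑ x ∈ RowsF c (r i), ∑ y ∈ RowsF c (r k'),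
        (if ∀ j, x j + y j ≤ c j then u x * w y else 0) = ∑ T ∈ Tab r c, u (T i) * w (T k') := by
  rw [sum_tab_pair hik hit hkt hsum u w]
  refine Finset.sum_congr rfl (fun x _ => Finset.sum_congr rfl (fun y _ => ?_))
  congr

/-- The form on functions of the rows from the result of the checker. -/
theorem rowForm_of_check (r : Fin 3 → ℕ) (hsum : ∑ j, c j = ∑ a, r a)
    (h : checkMargins (List.ofFn c) (r 0) (r 1) (r 2) = true) : RowForm r c := by
  intro φ
  set l := List.ofFn c with hl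
  set Z := numTables l (r 0) (r 1) with hZ
  set L := allItems l (r 0) (r 1) (r 2) with hL
  unfold checkMargins at h
  rw [← hL, ← hZ] at h
  have hlen : (mkTri (entry l Z) L).length = L.length := by
    clear h
    induction L with
    | nil => rfl
    | cons a L ih => simp [mkTri, ih]
  have h0 := psdF_sound _ _ _ h (by norm_num) (L.map (valI φ)) (by rw [hlen]; simp)
  rw [tform_mkTri (entry l Z) (valI φ) L
    (fun a ha b hb => entry_symm ha hb)] at h0
  -- the expansion along the blocks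
  set B0 := itemsOf l 0 (rowsOf l (r 0)) (rowsOf l (r 1)) with hB0
  set B1 := itemsOf l 1 (rowsOf l (r 1)) (rowsOf l (r 2)) with hB1
  set B2 := itemsOf l 2 (rowsOf l (r 2)) (rowsOf l (r 0)) with hB2
  have hLe : L = B0 ++ B1 ++ B2 := rfl
  have e0 : (L.map fun a => (L.map fun b => (entry l Z a b : ℝ) * valI φ a * valI φ b).sum).sum =
      SS (entry l Z) (valI φ) L L := rfl
  rw [e0, hLe] at h0
  simp only [SS_append_left, SS_append_right] at h0
  have t0 : tagF 0 = 0 := rfl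
  have t1 : tagF 1 = 1 := rfl
  have t2 : tagF 2 = 2 := rfl
  rw [hB0, hB1, hB2, hl,
    block_same c Z φ 0, block_same c Z φ 1, block_same c Z φ 2,
    block_diff c Z φ (ti := 0) (tk := 1) (by norm_num),
    block_diff c Z φ (ti := 0) (tk := 2) (by norm_num),
    block_diff c Z φ (ti := 1) (tk := 0) (by norm_num),
    block_diff c Z φ (ti := 1) (tk := 2) (by norm_num),
    block_diff c Z φ (ti := 2) (tk := 0) (by norm_num),
    block_diff c Z φ (ti := 2) (tk := 1) (by norm_num)] at h0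
  simp only [t0, t1, t2] at h0
  -- the pair sums over tables
  have d01 : (0 : Fin 3) ≠ 1 := by decide
  have d02 : (0 : Fin 3) ≠ 2 := by decide
  have d12 : (1 : Fin 3) ≠ 2 := by decide
  rw [sum_tab_pair' c d01 d02 d12 hsum (φ 0) (φ 1),
    sum_tab_pair' c d02 d01 d12.symm hsum (φ 0) (φ 2),
    sum_tab_pair' c d01.symm d12 d02 hsum (φ 1) (φ 0),
    sum_tab_pair' c d12 d01.symm d02.symm hsum (φ 1) (φ 2),
    sum_tab_pair' c d02.symm d12.symm d01 hsum (φ 2) (φ 0),
    sum_tab_pair' c d12.symm d02.symm d01.symm hsum (φ 2) (φ 1),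
    ← sum_tab_single d01 d02 d12 hsum (φ 0),
    ← sum_tab_single d12 d01.symm d02.symm hsum (φ 1),
    ← sum_tab_single d02.symm d12.symm d01 hsum (φ 2),
    ← sum_tab_single d01 d02 d12 hsum (fun x => φ 0 x ^ 2),
    ← sum_tab_single d12 d01.symm d02.symm hsum (fun x => φ 1 x ^ 2),
    ← sum_tab_single d02.symm d12.symm d01 hsum (fun x => φ 2 x ^ 2)] at h0
  -- the number of tables
  have hZc : (Z : ℝ) = ((Tab r c).card : ℝ) := by
    rw [card_tab d01 d02 d12 hsum, hZ, hl]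
    unfold numTables
    rw [sum_rowsOf]
    push_cast
    refine Finset.sum_congr rfl (fun x _ => ?_)
    rw [countP_eq]
  rw [hZc] at h0
  -- the final algebra
  set P0 := ∑ T ∈ Tab r c, φ 0 (T 0) with hP0
  set P1 := ∑ T ∈ Tab r c, φ 1 (T 1) with hP1
  set P2 := ∑ T ∈ Tab r c, φ 2 (T 2) with hP2
  set E0 := ∑ T ∈ Tab r c, φ 0 (T 0) ^ 2 with hE0
  set E1 := ∑ T ∈ Tab r c, φ 1 (T 1) ^ 2 with hE1
  set E2 := ∑ T ∈ Tab r c, φ 2 (T 2) ^ 2 with hE2
  set X01 := ∑ T ∈ Tab r c, φ 0 (T 0) * φ 1 (T 1) with hX01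
  set X02 := ∑ T ∈ Tab r c, φ 0 (T 0) * φ 2 (T 2) with hX02
  set X12 := ∑ T ∈ Tab r c, φ 1 (T 1) * φ 2 (T 2) with hX12
  have c01 : ∑ T ∈ Tab r c, φ 1 (T 1) * φ 0 (T 0) = X01 :=
    Finset.sum_congr rfl (fun _ _ => mul_comm _ _)
  have c02 : ∑ T ∈ Tab r c, φ 2 (T 2) * φ 0 (T 0) = X02 :=
    Finset.sum_congr rfl (fun _ _ => mul_comm _ _)
  have c12 : ∑ T ∈ Tab r c, φ 2 (T 2) * φ 1 (T 1) = X12 :=
    Finset.sum_congr rfl (fun _ _ => mul_comm _ _)
  rw [c01, c02, c12] at h0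
  have hE : ∑ y ∈ Tab r c, ∑ i, φ i (y i) ^ 2 = E0 + E1 + E2 := by
    simp only [Fin.sum_univ_three, Finset.sum_add_distrib]
    rfl
  have hG : ∑ y ∈ Tab r c, ∑ i, φ i (y i) = P0 + P1 + P2 := by
    simp only [Fin.sum_univ_three, Finset.sum_add_distrib]
    rfl
  have hF : ∑ y ∈ Tab r c, (∑ i, φ i (y i)) ^ 2 = E0 + E1 + E2 + 2 * X01 + 2 * X02 + 2 * X12 := by
    have : ∀ y ∈ Tab r c, (∑ i, φ i (y i)) ^ 2 = φ 0 (y 0) ^ 2 + φ 1 (y 1) ^ 2 + φ 2 (y 2) ^ 2 +
        2 * (φ 0 (y 0) * φ 1 (y 1)) + 2 * (φ 0 (y 0) * φ 2 (y 2)) + 2 * (φ 1 (y 1) * φ 2 (y 2)) := by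
      intro y _
      rw [Fin.sum_univ_three]
      ring
    rw [Finset.sum_congr rfl this]
    simp only [Finset.sum_add_distrib, ← Finset.mul_sum]
    rfl
  rw [hE, hF, hG]
  nlinarith [h0]

end Vale.Agent.Lib.P328
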