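import Vale.Agent.Lib.P328.Gap

/-!
From the spectral gap to the bound on the total variation distance of the row-pair chain.
-/

set_option linter.unusedSectionVars false
set_option linter.unusedSimpArgs false

namespace Vale.Agent.Lib.P328

open Finset
open Vale.Agent.Lib.P335 (avg dot fib mean mem_fib self_mem_fib fib_congr avg_congr fib_card_pos
  avg_congr_fun avg_const avg_avg dot_comm dot_sub_left dot_sub_right dot_self_nonneg dot_congr
  dot_avg_comm)

variable {m : ℕ} {C : Type*} [Fintype C] [DecidableEq C]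

/-- The number of ordered pairs of distinct rows. -/
noncomputable def MM (m : ℕ) : ℝ := (m : ℝ) * ((m : ℝ) - 1)

/-- The step of the chain acting on functions. -/
noncomputable def KK (r : Fin m → ℕ) (c : C → ℕ) (g : Tb m C → ℝ) (x : Tb m C) : ℝ :=
  (1 / MM m) * ∑ a : Fin m, ∑ b ∈ univ.erase a, avg (Tab r c) (keyP a b) g x

theorem MM_pos (hm : 2 ≤ m) : 0 < MM m := by
  unfold MM
  have : (2 : ℝ) ≤ m := by exact_mod_cast hm
  exact mul_pos (by linarith) (by linarith)

theorem sum_pairs_one : ∑ a : Fin m, ∑ _b ∈ (univ : Finset (Fin m)).erase a, (1 : ℝ) = MM m := by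
  have h : ∀ a : Fin m, ∑ _b ∈ (univ : Finset (Fin m)).erase a, (1 : ℝ) = (m : ℝ) - 1 := by
    intro a
    have h0 : 1 ≤ m := a.pos
    simp only [sum_const, nsmul_eq_mul, mul_one]
    rw [card_erase_of_mem (mem_univ a), card_univ, Fintype.card_fin, Nat.cast_sub h0]
    simp
  simp only [h, sum_const, card_univ, Fintype.card_fin, nsmul_eq_mul]
  rfl

section Kernel

variable (r : Fin m → ℕ) (c : C → ℕ)

theorem kernel_apply (g : Tb m C → ℝ) (x : Tb m C) :
    ∑ y ∈ Tab r c, rowKernel r c x y * g y = KK r c g x := by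
  unfold rowKernel KK MM
  simp only [Finset.sum_mul, mul_assoc]
  rw [← Finset.mul_sum]
  congr 1
  rw [Finset.sum_comm]
  refine Finset.sum_congr rfl (fun a _ => ?_)
  rw [Finset.sum_comm]
  refine Finset.sum_congr rfl (fun b _ => ?_)
  unfold avg fib
  rw [Finset.sum_filter, Finset.sum_div]
  refine Finset.sum_congr rfl (fun y hy => ?_)
  by_cases h : keyP a b y = keyP a b x
  · rw [if_pos ⟨hy, h⟩, if_pos h]
    ring
  · rw [if_neg (fun h' => h h'.2), if_neg h]
    ring

theorem kernel_symm {x y : Tb m C} (hx : x ∈ Tab r c) (hy : y ∈ Tab r c) :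
    rowKernel r c x y = rowKernel r c y x := by
  unfold rowKernel
  congr 1
  refine Finset.sum_congr rfl (fun a _ => Finset.sum_congr rfl (fun b _ => ?_))
  by_cases h : keyP a b y = keyP a b x
  · rw [if_pos ⟨hy, h⟩, if_pos ⟨hx, h.symm⟩, h]
  · rw [if_neg (fun h' => h h'.2), if_neg (fun h' => h h'.2.symm)]

theorem kernel_not_mem (x : Tb m C) {y : Tb m C} (hy : y ∉ Tab r c) : rowKernel r c x y = 0 := by
  unfold rowKernel
  rw [Finset.sum_eq_zero, mul_zero]
  intro a _
  exact Finset.sum_eq_zero (fun b _ => if_neg (fun h' => hy h'.1))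

theorem KK_const (hm : 2 ≤ m) (k : ℝ) {x : Tb m C} (hx : x ∈ Tab r c) :
    KK r c (fun _ => k) x = k := by
  unfold KK
  have h : ∀ a : Fin m, ∀ b ∈ (univ : Finset (Fin m)).erase a,
      avg (Tab r c) (keyP a b) (fun _ => k) x = k * 1 := fun a b _ => by
    rw [avg_const _ _ _ hx, mul_one]
  rw [Finset.sum_congr rfl (fun a _ => Finset.sum_congr rfl (h a))]
  simp only [← Finset.mul_sum]
  rw [sum_pairs_one]
  have := MM_pos hm
  field_simp

theorem kernel_sum_one (hm : 2 ≤ m) {x : Tb m C} (hx : x ∈ Tab r c) :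
    ∑ y ∈ Tab r c, rowKernel r c x y = 1 := by
  have := kernel_apply r c (fun _ => 1) x
  simp only [mul_one] at this
  rw [this, KK_const r c hm 1 hx]

theorem KK_eq_AA (hm : 2 ≤ m) (g : Tb m C → ℝ) (x : Tb m C) :
    KK r c g x = g x - (1 / MM m) * AA r c g x := by
  unfold KK AA sumOrd LL
  have hM := MM_pos hm
  have : ∑ a : Fin m, ∑ b ∈ univ.erase a, (g x - avg (Tab r c) (keyP a b) g x) =
      g x * MM m - ∑ a : Fin m, ∑ b ∈ univ.erase a, avg (Tab r c) (keyP a b) g x := by
    simp only [Finset.sum_sub_distrib]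
    rw [← sum_pairs_one]
    simp only [Finset.mul_sum, mul_one]
  rw [this]
  field_simp
  ring

/-- The square of the sum of the residuals is controlled by the sum of the squares. -/
theorem dot_AA_le (hm : 2 ≤ m) (g : Tb m C → ℝ) :
    dot (Tab r c) (AA r c g) (AA r c g) ≤ MM m * dot (Tab r c) g (AA r c g) := by
  rw [dot_f_AA]
  unfold dot sumNorm AA sumOrd dot
  have hcard : (((univ : Finset (Fin m)).sigma fun a => (univ : Finset (Fin m)).erase a).card : ℝ) =
      MM m := by
    have := sum_pairs_one (m := m)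
    rw [Finset.sum_sigma'] at this
    simpa using this
  have hpt : ∀ x ∈ Tab r c, (∑ a : Fin m, ∑ b ∈ univ.erase a, LL r c a b g x) *
      (∑ a : Fin m, ∑ b ∈ univ.erase a, LL r c a b g x) ≤
      MM m * ∑ a : Fin m, ∑ b ∈ univ.erase a, LL r c a b g x * LL r c a b g x := by
    intro x _
    rw [Finset.sum_sigma', Finset.sum_sigma']
    have := sq_sum_le_card_mul_sum_sq (s := (univ : Finset (Fin m)).sigma
      fun a => (univ : Finset (Fin m)).erase a) (f := fun p => LL r c p.1 p.2 g x)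
    rw [hcard] at this
    simp only [sq] at this
    exact this
  calc _ ≤ ∑ x ∈ Tab r c, (MM m * ∑ a : Fin m, ∑ b ∈ univ.erase a, LL r c a b g x * LL r c a b g x) :=
        Finset.sum_le_sum hpt
    _ = _ := by
        rw [← Finset.mul_sum]
        congr 1
        rw [Finset.sum_comm]
        refine Finset.sum_congr rfl (fun a _ => ?_)
        rw [Finset.sum_comm]

variable {r c}

/-- One step of the chain contracts the norm on functions of mean zero. -/
theorem dot_KK_le (hm : 2 ≤ m) (h3 : AllTriples r c) (g : Tb m C → ℝ)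
    (hg : ∑ x ∈ Tab r c, g x = 0) :
    dot (Tab r c) (KK r c g) (KK r c g) ≤ (1 - 2 / MM m) * dot (Tab r c) g g := by
  have hM := MM_pos hm
  have hmean : ∀ x, g x - mean (Tab r c) g = g x := by
    intro x
    simp [mean, hg]
  have hgap := gap_AA h3 g
  simp only [hmean] at hgap
  have hA := dot_AA_le r c hm g
  have e : dot (Tab r c) (KK r c g) (KK r c g) = dot (Tab r c) g g -
      (2 / MM m) * dot (Tab r c) g (AA r c g) +
      (1 / MM m) ^ 2 * dot (Tab r c) (AA r c g) (AA r c g) := by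
    unfold dot
    simp only [KK_eq_AA r c hm]
    rw [Finset.mul_sum, Finset.mul_sum, ← Finset.sum_sub_distrib, ← Finset.sum_add_distrib]
    refine Finset.sum_congr rfl (fun x _ => ?_)
    field_simp
    ring
  rw [e]
  set D := dot (Tab r c) g (AA r c g) with hD
  set E := dot (Tab r c) (AA r c g) (AA r c g) with hE
  set V := dot (Tab r c) g g with hV
  have h1 : (1 / MM m) ^ 2 * E ≤ (1 / MM m) * D := by
    have : (1 / MM m) ^ 2 * E ≤ (1 / MM m) ^ 2 * (MM m * D) :=
      mul_le_mul_of_nonneg_left hA (by positivity)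
    refine this.trans (le_of_eq ?_)
    field_simp
  have h2 : (2 / MM m) * V ≤ (1 / MM m) * D := by
    have : (1 / MM m) * (2 * V) ≤ (1 / MM m) * D :=
      mul_le_mul_of_nonneg_left hgap (by positivity)
    refine le_trans (le_of_eq ?_) this
    field_simp
  have e2 : (2 / MM m) * D = (1 / MM m) * D + (1 / MM m) * D := by
    field_simp
    ring
  rw [e2]
  have e3 : (1 - 2 / MM m) * V = V - (2 / MM m) * V := by ring
  rw [e3]
  linarith

end Kernel

section Law

variable {r : Fin m → ℕ} {c : C → ℕ}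

theorem law_not_mem {x : Tb m C} (hx : x ∈ Tab r c) (t : ℕ) {y : Tb m C} (hy : y ∉ Tab r c) :
    rowLaw r c x t y = 0 := by
  cases t with
  | zero =>
    have hne : y ≠ x := fun h => hy (h ▸ hx)
    simp [rowLaw, hne]
  | succ t =>
    simp only [rowLaw]
    exact Finset.sum_eq_zero (fun z _ => by rw [kernel_not_mem r c z hy, mul_zero])

theorem law_succ (t : ℕ) (x : Tb m C) {y : Tb m C} (hy : y ∈ Tab r c) :
    rowLaw r c x (t + 1) y = KK r c (rowLaw r c x t) y := by
  rw [← kernel_apply]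
  simp only [rowLaw]
  refine Finset.sum_congr rfl (fun z hz => ?_)
  rw [kernel_symm r c hz hy]
  ring

theorem law_mass (hm : 2 ≤ m) {x : Tb m C} (hx : x ∈ Tab r c) (t : ℕ) :
    ∑ y ∈ Tab r c, rowLaw r c x t y = 1 := by
  induction t with
  | zero =>
    simp only [rowLaw]
    rw [Finset.sum_eq_single x]
    · simp
    · intro b _ hb
      simp [hb]
    · intro h
      exact absurd hx h
  | succ t ih =>
    simp only [rowLaw]
    rw [Finset.sum_comm]
    have : ∀ z ∈ Tab r c, ∑ y ∈ Tab r c, rowLaw r c x t z * rowKernel r c z y =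
        rowLaw r c x t z := by
      intro z hz
      rw [← Finset.mul_sum, kernel_sum_one r c hm hz, mul_one]
    rw [Finset.sum_congr rfl this, ih]

/-- The squared distance to uniform. -/
noncomputable def sqD (r : Fin m → ℕ) (c : C → ℕ) (x : Tb m C) (t : ℕ) : ℝ :=
  ∑ y ∈ Tab r c, (rowLaw r c x t y - 1 / ((Tab r c).card : ℝ)) ^ 2

theorem KK_sub_const (hm : 2 ≤ m) (g : Tb m C → ℝ) (k : ℝ) {y : Tb m C} (hy : y ∈ Tab r c) :
    KK r c (fun z => g z - k) y = KK r c g y - k := by
  have h := KK_const r c hm k hy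
  unfold KK at h ⊢
  simp only [avg_sub'] at h ⊢
  simp only [Finset.sum_sub_distrib, mul_sub] at h ⊢
  rw [h]

theorem sqD_succ (hm : 2 ≤ m) (h3 : AllTriples r c) {x : Tb m C} (hx : x ∈ Tab r c) (t : ℕ) :
    sqD r c x (t + 1) ≤ (1 - 2 / MM m) * sqD r c x t := by
  have hcard : 0 < ((Tab r c).card : ℝ) := by
    exact_mod_cast Finset.card_pos.2 ⟨x, hx⟩
  set u : ℝ := 1 / ((Tab r c).card : ℝ) with hu
  set g : Tb m C → ℝ := fun y => rowLaw r c x t y - u with hg
  have hg0 : ∑ y ∈ Tab r c, g y = 0 := by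
    simp only [hg]
    rw [Finset.sum_sub_distrib, law_mass hm hx t, Finset.sum_const, nsmul_eq_mul, hu]
    field_simp
    ring
  have hstep : ∀ y ∈ Tab r c, rowLaw r c x (t + 1) y - u = KK r c g y := by
    intro y hy
    rw [law_succ t x hy, KK_sub_const hm _ u hy]
  have h := dot_KK_le hm h3 g hg0
  have e1 : sqD r c x (t + 1) = dot (Tab r c) (KK r c g) (KK r c g) := by
    unfold sqD dot
    refine Finset.sum_congr rfl (fun y hy => ?_)
    rw [hstep y hy]
    ring
  have e2 : sqD r c x t = dot (Tab r c) g g := by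
    unfold sqD dot
    refine Finset.sum_congr rfl (fun y _ => ?_)
    simp only [hg]
    ring
  rw [e1, e2]
  exact h

theorem sqD_zero_le {x : Tb m C} (hx : x ∈ Tab r c) : sqD r c x 0 ≤ 1 := by
  have hcard : 1 ≤ ((Tab r c).card : ℝ) := by
    exact_mod_cast Finset.card_pos.2 ⟨x, hx⟩
  unfold sqD
  simp only [rowLaw]
  have e : ∀ y ∈ Tab r c, ((if y = x then (1 : ℝ) else 0) - 1 / ((Tab r c).card : ℝ)) ^ 2 =
      (if y = x then (1 : ℝ) else 0) * (1 - 2 / ((Tab r c).card : ℝ)) +
        (1 / ((Tab r c).card : ℝ)) ^ 2 := by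
    intro y _
    by_cases h : y = x
    · simp only [h, if_true]; ring
    · simp only [h, if_false]; ring
  rw [Finset.sum_congr rfl e, Finset.sum_add_distrib, ← Finset.sum_mul, Finset.sum_const,
    nsmul_eq_mul]
  have : ∑ y ∈ Tab r c, (if y = x then (1 : ℝ) else 0) = 1 := by
    rw [Finset.sum_eq_single x]
    · simp
    · intro b _ hb
      simp [hb]
    · intro h
      exact absurd hx h
  rw [this]
  have hc0 : 0 < ((Tab r c).card : ℝ) := by linarith
  have : 1 * (1 - 2 / ((Tab r c).card : ℝ)) + ((Tab r c).card : ℝ) * (1 / ((Tab r c).card : ℝ)) ^ 2 =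
      1 - 1 / ((Tab r c).card : ℝ) := by
    field_simp
    ring
  rw [this]
  have : 0 < 1 / ((Tab r c).card : ℝ) := by positivity
  linarith

theorem rate_nonneg (hm : 2 ≤ m) : 0 ≤ 1 - 2 / MM m := by
  have hm' : (2 : ℝ) ≤ m := by exact_mod_cast hm
  have hM : 2 ≤ MM m := by
    unfold MM
    nlinarith
  have : 2 / MM m ≤ 1 := by
    rw [div_le_one (by linarith)]
    exact hM
  linarith

theorem sqD_le (hm : 2 ≤ m) (h3 : AllTriples r c) {x : Tb m C} (hx : x ∈ Tab r c) (t : ℕ) :
    sqD r c x t ≤ (1 - 2 / MM m) ^ t := by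
  induction t with
  | zero => simpa using sqD_zero_le hx
  | succ t ih =>
    calc sqD r c x (t + 1) ≤ (1 - 2 / MM m) * sqD r c x t := sqD_succ hm h3 hx t
      _ ≤ (1 - 2 / MM m) * (1 - 2 / MM m) ^ t :=
          mul_le_mul_of_nonneg_left ih (rate_nonneg hm)
      _ = (1 - 2 / MM m) ^ (t + 1) := by ring

theorem tv_sq_le (x : Tb m C) (t : ℕ) :
    tvUnif r c (rowLaw r c x t) ^ 2 ≤ (1 / 4) * ((Tab r c).card : ℝ) * sqD r c x t := by
  unfold tvUnif sqD
  have hcs := Finset.sum_mul_sq_le_sq_mul_sq (Tab r c) (fun _ => (1 : ℝ))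
    (fun y => |rowLaw r c x t y - 1 / ((Tab r c).card : ℝ)|)
  simp only [one_mul, sq_abs, one_pow, Finset.sum_const, nsmul_eq_mul, mul_one] at hcs
  calc ((1 / 2) * ∑ y ∈ Tab r c, |rowLaw r c x t y - 1 / ((Tab r c).card : ℝ)|) ^ 2
      = (1 / 4) * (∑ y ∈ Tab r c, |rowLaw r c x t y - 1 / ((Tab r c).card : ℝ)|) ^ 2 := by ring
    _ ≤ _ := by
      rw [mul_assoc]
      exact mul_le_mul_of_nonneg_left hcs (by norm_num)

/-- The number of tables with row sums at most `R`. -/
theorem card_Tab_le {R : ℕ} (hR : ∀ i, r i ≤ R) :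
    ((Tab r c).card : ℝ) ≤ ((R : ℝ) + 1) ^ (m * Fintype.card C) := by
  have h1 : (Tab r c).card ≤ (Fintype.piFinset fun _ : Fin m =>
      Fintype.piFinset fun _ : C => range (R + 1)).card := by
    refine Finset.card_le_card (fun X hX => ?_)
    have := (Finset.mem_filter.1 hX).1
    rw [Fintype.mem_piFinset] at this ⊢
    intro i
    have h2 := this i
    rw [Fintype.mem_piFinset] at h2 ⊢
    intro j
    have h3 := h2 j
    rw [mem_range] at h3 ⊢
    have := hR i
    omega
  have h2 : (Fintype.piFinset fun _ : Fin m =>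
      Fintype.piFinset fun _ : C => range (R + 1)).card = (R + 1) ^ (m * Fintype.card C) := by
    simp [Fintype.card_piFinset, pow_mul]
    rw [← pow_mul, mul_comm, pow_mul]
  rw [h2] at h1
  exact_mod_cast h1

/-- The mixing bound: the form with the exponential. -/
theorem tv_le_of_triples (hm : 2 ≤ m) (h3 : AllTriples r c) {x : Tb m C} (hx : x ∈ Tab r c) (t : ℕ)
    {R : ℕ} (hR : ∀ i, r i ≤ R) {ε : ℝ} (hε : 0 < ε)
    (ht : (m : ℝ) * ((m : ℝ) - 1) / 2 *
      ((m : ℝ) * (Fintype.card C : ℝ) * Real.log ((R : ℝ) + 1) + 2 * Real.log (1 / ε)) ≤ t) :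
    tvUnif r c (rowLaw r c x t) ≤ ε := by
  have hM := MM_pos hm
  have h1 := tv_sq_le (r := r) (c := c) x t
  have h2 := sqD_le hm h3 hx t
  have h4 := card_Tab_le (r := r) (c := c) hR
  have hR1 : (0 : ℝ) < (R : ℝ) + 1 := by positivity
  -- exponential bound on the rate
  have hb1 : 1 - 2 / MM m ≤ Real.exp (-(2 / MM m)) := by
    have := Real.add_one_le_exp (-(2 / MM m))
    linarith
  have hexp : (1 - 2 / MM m) ^ t ≤ Real.exp (-(2 / MM m) * t) := by
    calc (1 - 2 / MM m) ^ t ≤ (Real.exp (-(2 / MM m))) ^ t :=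
          pow_le_pow_left₀ (rate_nonneg hm) hb1 t
      _ = Real.exp (-(2 / MM m) * t) := by
          rw [← Real.exp_nat_mul]
          congr 1
          ring
  have hcardexp : ((Tab r c).card : ℝ) ≤
      Real.exp ((m : ℝ) * (Fintype.card C : ℝ) * Real.log ((R : ℝ) + 1)) := by
    refine h4.trans (le_of_eq ?_)
    rw [show (m : ℝ) * (Fintype.card C : ℝ) = ((m * Fintype.card C : ℕ) : ℝ) by push_cast; ring,
      ← Real.rpow_natCast, Real.rpow_def_of_pos hR1]
    congr 1
    ring
  have hs0 : 0 ≤ sqD r c x t := Finset.sum_nonneg fun _ _ => sq_nonneg _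
  set L : ℝ := (m : ℝ) * (Fintype.card C : ℝ) * Real.log ((R : ℝ) + 1) with hL
  have hprod : ((Tab r c).card : ℝ) * sqD r c x t ≤ Real.exp (L - 2 / MM m * t) := by
    have e : Real.exp (L - 2 / MM m * t) = Real.exp L * Real.exp (-(2 / MM m) * t) := by
      rw [← Real.exp_add]
      congr 1
      ring
    rw [e]
    exact mul_le_mul hcardexp (h2.trans hexp) hs0 (Real.exp_pos _).le
  have hexpo : L - 2 / MM m * t ≤ -(2 * Real.log (1 / ε)) := by
    have : (2 / MM m) * (MM m / 2 * (L + 2 * Real.log (1 / ε))) ≤ (2 / MM m) * t := by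
      refine mul_le_mul_of_nonneg_left ?_ (by positivity)
      unfold MM
      exact ht
    have e : (2 / MM m) * (MM m / 2 * (L + 2 * Real.log (1 / ε))) = L + 2 * Real.log (1 / ε) := by
      field_simp
    rw [e] at this
    linarith
  have hexp2 : Real.exp (L - 2 / MM m * t) ≤ ε ^ 2 := by
    refine (Real.exp_le_exp.2 hexpo).trans (le_of_eq ?_)
    rw [one_div, Real.log_inv]
    have : -(2 * -Real.log ε) = 2 * Real.log ε := by ring
    rw [this, show (2 : ℝ) * Real.log ε = Real.log ε + Real.log ε by ring, Real.exp_add,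
      Real.exp_log hε]
    ring
  have hfinal : tvUnif r c (rowLaw r c x t) ^ 2 ≤ ε ^ 2 := by
    calc _ ≤ (1 / 4) * ((Tab r c).card : ℝ) * sqD r c x t := h1
      _ = (1 / 4) * (((Tab r c).card : ℝ) * sqD r c x t) := by ring
      _ ≤ (1 / 4) * ε ^ 2 := mul_le_mul_of_nonneg_left (hprod.trans hexp2) (by norm_num)
      _ ≤ ε ^ 2 := by nlinarith [sq_nonneg ε]
  exact (pow_le_pow_iff_left₀ (by
    unfold tvUnif
    exact mul_nonneg (by norm_num) (Finset.sum_nonneg fun _ _ => abs_nonneg _)) hε.le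
    (by norm_num)).1 hfinal

end Law

end Vale.Agent.Lib.P328
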