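import Vale.Agent.Lib.P328.Link
import Vale.Agent.Lib.P335.Mat3

/-!
Reduction of the three-row inequality to sorted positive column sums.
-/

set_option linter.unusedSectionVars false
set_option linter.unusedSimpArgs false

namespace Vale.Agent.Lib.P328

open Finset
open Vale.Agent.Lib.P335 (avg dot avg_transport dot_transport)
open Chk

variable {C : Type*} [Fintype C] [DecidableEq C]

theorem mem_partsOf : ∀ (x : List ℕ) (fuel s m : ℕ), x.Pairwise (· ≤ ·) → (∀ a ∈ x, m ≤ a) → 1 ≤ m →
    x.sum = s → s ≤ fuel → x ∈ partsOf fuel s m := by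
  intro x
  induction x with
  | nil =>
    intro fuel s m _ _ _ hs _
    simp only [List.sum_nil] at hs
    subst hs
    cases fuel <;> simp [partsOf]
  | cons a x ih =>
    intro fuel s m hx hm hm1 hs hf
    have ha : m ≤ a := hm a List.mem_cons_self
    simp only [List.sum_cons] at hs
    cases fuel with
    | zero => omega
    | succ fuel =>
      simp only [partsOf]
      rw [if_neg (by omega)]
      simp only [List.mem_flatMap, List.mem_range, List.mem_map]
      refine ⟨a - m, by omega, x, ?_, ?_⟩
      · have e : m + (a - m) = a := by omega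
        rw [e]
        rw [List.pairwise_cons] at hx
        exact ih fuel (s - a) a hx.2 hx.1 (by omega) (by omega) (by omega)
      · have e : m + (a - m) = a := by omega
        rw [e]

theorem threeRowAt_of_empty {r : Fin 3 → ℕ} {c : C → ℕ} (h : Tab r c = ∅) : ThreeRowAt r c := by
  intro f
  rw [h]
  simp [dot]

/-- Sums over the columns can be restricted to the image of an injection. -/
theorem sum_of_image {K : Type*} [Fintype K] [DecidableEq K] {e : K → C} (he : Function.Injective e)
    (g : C → ℕ) (hg : ∀ j, (¬ ∃ a, e a = j) → g j = 0) : ∑ j, g j = ∑ a, g (e a) := by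
  rw [← Finset.sum_image (f := g) (s := univ) (g := e) he.injOn]
  symm
  refine Finset.sum_subset (Finset.subset_univ _) (fun j _ hj => hg j ?_)
  simpa using hj

section Transport

variable {K : Type*} [Fintype K] [DecidableEq K] {e : K → C}

/-- The restriction of a table to the columns in the image. -/
def resT (e : K → C) (T : Tb 3 C) : Tb 3 K := fun i a => T i (e a)

variable {r : Fin 3 → ℕ} {c : C → ℕ}

theorem cell_zero {T : Tb 3 C} (hT : T ∈ Tab r c) {j : C} (hj : c j = 0) (i : Fin 3) : T i j = 0 := by
  have h := (mem_Tab.1 hT).2 j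
  rw [hj] at h
  exact (Finset.sum_eq_zero_iff.1 h) i (mem_univ i)

theorem resT_image (he : Function.Injective e) (hs : ∀ j, c j ≠ 0 → ∃ a, e a = j) :
    (Tab r c).image (resT e) = Tab r (c ∘ e) := by
  ext y
  simp only [mem_image]
  constructor
  · rintro ⟨T, hT, rfl⟩
    rw [mem_Tab]
    have hz : ∀ i j, (¬ ∃ a, e a = j) → T i j = 0 := fun i j hj =>
      cell_zero hT (by
        by_contra h
        exact hj (hs j h)) i
    constructor
    · intro i
      rw [← (mem_Tab.1 hT).1 i]
      exact (sum_of_image he (T i) (hz i)).symm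
    · intro a
      exact (mem_Tab.1 hT).2 (e a)
  · intro hy
    rw [mem_Tab] at hy
    let T : Tb 3 C := fun i => Function.extend e (y i) 0
    have hT1 : ∀ i a, T i (e a) = y i a := fun i a => he.extend_apply _ _ _
    have hT2 : ∀ i j, (¬ ∃ a, e a = j) → T i j = 0 := fun i j hj =>
      Function.extend_apply' _ _ _ hj
    refine ⟨T, ?_, ?_⟩
    · rw [mem_Tab]
      constructor
      · intro i
        show ∑ j, T i j = r i
        rw [sum_of_image he (T i) (hT2 i)]
        simp only [hT1]
        exact hy.1 i
      · intro j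
        by_cases hj : ∃ a, e a = j
        · obtain ⟨a, rfl⟩ := hj
          show ∑ i, T i (e a) = c (e a)
          simp only [hT1]
          exact hy.2 a
        · have h0 : c j = 0 := by
            by_contra h
            exact hj (hs j h)
          show ∑ i, T i j = c j
          rw [h0]
          exact Finset.sum_eq_zero (fun i _ => hT2 i j hj)
    · funext i a
      exact hT1 i a

theorem resT_eq_iff (hs : ∀ j, c j ≠ 0 → ∃ a, e a = j) {T T' : Tb 3 C} (hT : T ∈ Tab r c)
    (hT' : T' ∈ Tab r c) (i : Fin 3) : T i = T' i ↔ resT e T i = resT e T' i := by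
  constructor
  · intro h
    funext a
    exact congrFun h (e a)
  · intro h
    funext j
    by_cases hj : c j = 0
    · rw [cell_zero hT hj, cell_zero hT' hj]
    · obtain ⟨a, rfl⟩ := hs j hj
      exact congrFun h a

theorem resT_injOn (hs : ∀ j, c j ≠ 0 → ∃ a, e a = j) :
    Set.InjOn (resT e) (Tab r c : Set (Tb 3 C)) := by
  intro T hT T' hT' h
  funext i
  exact (resT_eq_iff hs (Finset.mem_coe.1 hT) (Finset.mem_coe.1 hT') i).2 (congrFun h i)

/-- The three-row inequality transports along an injection onto the support of the columns. -/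
theorem threeRowAt_of_embedding (he : Function.Injective e) (hs : ∀ j, c j ≠ 0 → ∃ a, e a = j)
    (h : ThreeRowAt r (c ∘ e)) : ThreeRowAt r c := by
  intro f
  classical
  set s := Tab r c with hsd
  have hinj : Set.InjOn (resT e) (s : Set (Tb 3 C)) := resT_injOn hs
  have himg : s.image (resT e) = Tab r (c ∘ e) := resT_image he hs
  let g : Tb 3 K → ℝ := fun y => f (Function.invFunOn (resT e) (s : Set (Tb 3 C)) y)
  have hg : ∀ x ∈ s, g (resT e x) = f x := by
    intro x hx
    show f _ = f x
    rw [hinj.leftInvOn_invFunOn (Finset.mem_coe.2 hx)]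
  have hF : ∀ i, ∀ x ∈ s, (fun y => g y - avg (Tab r (c ∘ e)) (rowKey3 i) g y) (resT e x) =
      f x - avg s (rowKey3 i) f x := by
    intro i x hx
    have h1 := avg_transport hinj himg (κ := rowKey3 i) (κ' := rowKey3 i)
      (fun a ha b hb => resT_eq_iff hs ha hb i) (f := f) (g := g) hg hx
    show g (resT e x) - avg _ (rowKey3 i) g (resT e x) = _
    rw [hg x hx, h1]
  have := h g
  rw [dot_transport hinj himg (hF 0) (hF 1), dot_transport hinj himg (hF 0) (hF 2),
    dot_transport hinj himg (hF 1) (hF 2)] at this
  exact this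

end Transport

/-- The column sums and the row sums have the same total. -/
theorem sum_eq_of_mem {r : Fin 3 → ℕ} {c : C → ℕ} {T : Tb 3 C} (hT : T ∈ Tab r c) :
    ∑ j, c j = ∑ i, r i := by
  rw [mem_Tab] at hT
  calc ∑ j, c j = ∑ j, ∑ i, T i j := Finset.sum_congr rfl (fun j _ => (hT.2 j).symm)
    _ = ∑ i, ∑ j, T i j := Finset.sum_comm
    _ = ∑ i, r i := Finset.sum_congr rfl (fun i _ => hT.1 i)

/-- The three-row inequality from the checker, for all column sums. -/
theorem threeRowAt_of_checkRows {r : Fin 3 → ℕ} (c : C → ℕ)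
    (h : checkRows (r 0) (r 1) (r 2) = true) : ThreeRowAt r c := by
  classical
  rcases (Tab r c).eq_empty_or_nonempty with hemp | ⟨T, hT⟩
  · exact threeRowAt_of_empty hemp
  have hsum := sum_eq_of_mem hT
  -- the sorted support
  set S : Finset C := univ.filter fun j => c j ≠ 0 with hS
  let e0 : Fin S.card ≃ {j // j ∈ S} := S.equivFin.symm
  let f : Fin S.card → ℕ := fun a => c (e0 a).1
  let σ : Equiv.Perm (Fin S.card) := Tuple.sort f
  let e : Fin S.card → C := fun a => (e0 (σ a)).1
  have he : Function.Injective e := by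
    intro a b hab
    have : e0 (σ a) = e0 (σ b) := Subtype.ext hab
    exact σ.injective (e0.injective this)
  have hs : ∀ j, c j ≠ 0 → ∃ a, e a = j := by
    intro j hj
    have hjS : j ∈ S := by
      rw [hS]
      simpa using hj
    refine ⟨σ.symm (e0.symm ⟨j, hjS⟩), ?_⟩
    simp [e]
  have hmono : Monotone (c ∘ e) := Tuple.monotone_sort f
  have hpos : ∀ a, 1 ≤ (c ∘ e) a := by
    intro a
    have h2 : c (e0 (σ a)).1 ≠ 0 := (Finset.mem_filter.1 (e0 (σ a)).2).2
    exact Nat.one_le_iff_ne_zero.2 h2
  have hsum2 : ∑ a, (c ∘ e) a = ∑ i, r i := by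
    rw [← hsum]
    symm
    exact sum_of_image he c (fun j hj => by
      by_contra h0
      exact hj (hs j h0))
  apply threeRowAt_of_embedding he hs
  apply threeRowAt_of_rowForm
  apply rowForm_of_check (c ∘ e) r hsum2
  have hcheck := h
  unfold checkRows at hcheck
  rw [List.all_eq_true] at hcheck
  apply hcheck
  have hsum3 : (List.ofFn (c ∘ e)).sum = r 0 + r 1 + r 2 := by
    rw [List.sum_ofFn, hsum2, Fin.sum_univ_three]
  refine mem_partsOf _ _ _ _ ?_ ?_ le_rfl hsum3 le_rfl
  · rw [List.pairwise_ofFn]
    intro i j hij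
    exact hmono hij.le
  · intro a ha
    rw [List.mem_ofFn] at ha
    obtain ⟨b, rfl⟩ := ha
    exact hpos b

end Vale.Agent.Lib.P328
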