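import Vale.Agent.Lib.P328.Triple
import Vale.Agent.Lib.P335.ThreeRowSpec

/-!
The three-row inequality follows from an inequality for sums of functions of the rows.
-/

set_option linter.unusedSectionVars false
set_option linter.unusedSimpArgs false

namespace Vale.Agent.Lib.P328

open Finset
open Vale.Agent.Lib.P335 (avg dot fib mean mem_fib self_mem_fib fib_congr avg_congr fib_card_pos
  avg_congr_fun avg_const avg_avg dot_comm dot_sub_left dot_sub_right dot_self_nonneg dot_congr
  dot_avg_comm offdiag_of_bound)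

variable {C : Type*} [Fintype C] [DecidableEq C]

/-- The inequality for sums of functions of the rows: with `Z` the number of tables and
`F = φ₀(y 0) + φ₁(y 1) + φ₂(y 2)`, we have `3 Z (2 ∑ ∑ φᵢ² - ∑ F²) + (∑ F)² ≥ 0`. -/
def RowForm (r : Fin 3 → ℕ) (c : C → ℕ) : Prop :=
  ∀ φ : Fin 3 → (C → ℕ) → ℝ,
    0 ≤ 3 * ((Tab r c).card : ℝ) *
        (2 * ∑ y ∈ Tab r c, ∑ i, φ i (y i) ^ 2 - ∑ y ∈ Tab r c, (∑ i, φ i (y i)) ^ 2) +
      (∑ y ∈ Tab r c, ∑ i, φ i (y i)) ^ 2

variable {r : Fin 3 → ℕ} {c : C → ℕ}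

/-- The function of the row given by the average. -/
noncomputable def rowAvg (r : Fin 3 → ℕ) (c : C → ℕ) (f : Tb 3 C → ℝ) (i : Fin 3) (x : C → ℕ) : ℝ :=
  (∑ y ∈ (Tab r c).filter (fun y => y i = x), f y) / (((Tab r c).filter (fun y => y i = x)).card : ℝ)

theorem avg_eq_rowAvg (f : Tb 3 C → ℝ) (i : Fin 3) (y : Tb 3 C) :
    avg (Tab r c) (rowKey3 i) f y = rowAvg r c f i (y i) := rfl

/-- The inequality at a function of mean zero. -/
theorem bound_of_rowForm (h : RowForm r c) (f : Tb 3 C → ℝ) (hf : ∑ y ∈ Tab r c, f y = 0) :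
    dot (Tab r c) f (fun y => avg (Tab r c) (rowKey3 0) f y + avg (Tab r c) (rowKey3 1) f y +
      avg (Tab r c) (rowKey3 2) f y) ≤ 2 * dot (Tab r c) f f := by
  classical
  set s := Tab r c with hs
  set g : Fin 3 → Tb 3 C → ℝ := fun i y => avg s (rowKey3 i) f y with hg
  -- the means of the `g i` vanish
  have hmean : ∀ i, ∑ y ∈ s, g i y = 0 := by
    intro i
    have := dot_avg_comm s (rowKey3 i) f (fun _ => 1)
    simp only [dot, mul_one] at this
    have h2 : ∑ x ∈ s, f x * avg s (rowKey3 i) (fun _ => (1 : ℝ)) x = ∑ x ∈ s, f x :=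
      Finset.sum_congr rfl (fun x hx => by rw [avg_const _ _ _ hx, mul_one])
    rw [h2, hf] at this
    exact this
  -- the form
  have h1 := h (fun i x => rowAvg r c f i x)
  have e : ∀ i y, rowAvg r c f i (y i) = g i y := fun i y => rfl
  simp only [e] at h1
  rw [← hs] at h1
  have hF : ∑ y ∈ s, ∑ i, g i y = 0 := by
    rw [Finset.sum_comm]
    exact Finset.sum_eq_zero (fun i _ => hmean i)
  rw [hF] at h1
  simp only [ne_eq, OfNat.ofNat_ne_zero, not_false_eq_true, zero_pow, add_zero] at h1
  -- notation for the squares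
  set G : Tb 3 C → ℝ := fun y => ∑ i, g i y with hG
  set A : ℝ := ∑ y ∈ s, ∑ i, g i y ^ 2 with hA
  have hsqG : ∑ y ∈ s, G y ^ 2 ≤ 2 * A := by
    rcases s.eq_empty_or_nonempty with hemp | hne
    · simp [hemp, hA]
    · have hc : (0 : ℝ) < 3 * (s.card : ℝ) := by
        have : 0 < s.card := Finset.card_pos.2 hne
        positivity
      have := nonneg_of_mul_nonneg_right h1 hc
      linarith
  -- `A = ⟨f, G⟩`
  have hdot : ∀ i, dot s f (g i) = dot s (g i) (g i) := by
    intro i
    rw [hg]
    simp only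
    rw [dot_avg_comm]
    exact dot_congr (fun _ _ => rfl) (fun x hx => (avg_avg f hx).symm)
  have hfG : dot s f G = A := by
    have e1 : dot s f G = ∑ i, dot s f (g i) := by
      simp only [dot, hG, Finset.mul_sum]
      rw [Finset.sum_comm]
    rw [e1, Finset.sum_congr rfl (fun i _ => hdot i), hA]
    simp only [dot]
    rw [Finset.sum_comm]
    exact Finset.sum_congr rfl (fun y _ => Finset.sum_congr rfl (fun i _ => by ring))
  have hA0 : 0 ≤ A := Finset.sum_nonneg (fun _ _ => Finset.sum_nonneg (fun _ _ => sq_nonneg _))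
  -- Cauchy
  have hcs : (dot s f G) ^ 2 ≤ dot s f f * ∑ y ∈ s, G y ^ 2 := by
    have := Finset.sum_mul_sq_le_sq_mul_sq s f G
    simp only [dot, ← sq]
    simpa [dot, sq] using this
  rw [hfG] at hcs
  have hff : 0 ≤ dot s f f := dot_self_nonneg _ _
  have hAle : A ≤ 2 * dot s f f := by
    by_cases hA00 : A = 0
    · rw [hA00]
      linarith
    · have hApos : 0 < A := lt_of_le_of_ne hA0 (Ne.symm hA00)
      have : A * A ≤ A * (2 * dot s f f) := by
        have h3 : dot s f f * ∑ y ∈ s, G y ^ 2 ≤ dot s f f * (2 * A) :=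
          mul_le_mul_of_nonneg_left hsqG hff
        nlinarith
      exact le_of_mul_le_mul_left this hApos
  have e3 : dot s f (fun y => g 0 y + g 1 y + g 2 y) = dot s f G := by
    unfold dot
    refine Finset.sum_congr rfl (fun y _ => ?_)
    simp only [hG, Fin.sum_univ_three]
  show dot s f (fun y => g 0 y + g 1 y + g 2 y) ≤ _
  rw [e3, hfG]
  exact hAle

/-- The three-row inequality from the inequality for functions of the rows. -/
theorem threeRowAt_of_rowForm (h : RowForm r c) : ThreeRowAt r c := by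
  intro f
  classical
  set s := Tab r c with hs
  set m := mean s f with hm
  set f0 : Tb 3 C → ℝ := fun y => f y - m with hf0
  have hsum : ∑ y ∈ s, f0 y = 0 := by
    simp only [hf0]
    rw [Finset.sum_sub_distrib, Finset.sum_const, nsmul_eq_mul]
    rcases s.eq_empty_or_nonempty with hemp | hne
    · simp [hemp]
    · have : (s.card : ℝ) ≠ 0 := by
        exact_mod_cast (Finset.card_pos.2 hne).ne'
      rw [hm, mean]
      field_simp
      ring
  have hb := bound_of_rowForm h f0 hsum
  have hoff := offdiag_of_bound s (fun i => rowKey3 i) f0 hb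
  -- the residuals of `f0` and of `f` agree on `s`
  have hres : ∀ i, ∀ y ∈ s, f0 y - avg s (rowKey3 i) f0 y = f y - avg s (rowKey3 i) f y := by
    intro i y hy
    have h1 : avg s (rowKey3 i) f0 y = avg s (rowKey3 i) f y - m := by
      simp only [hf0]
      rw [avg_sub', avg_const _ _ _ hy]
    rw [h1]
    simp only [hf0]
    ring
  have e : ∀ i k, dot s (fun y => f0 y - avg s (rowKey3 i) f0 y)
      (fun y => f0 y - avg s (rowKey3 k) f0 y) =
      dot s (fun y => f y - avg s (rowKey3 i) f y) (fun y => f y - avg s (rowKey3 k) f y) :=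
    fun i k => dot_congr (hres i) (hres k)
  simp only [e] at hoff
  exact hoff

end Vale.Agent.Lib.P328
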