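import Vale.Agent.Lib.P328.Reduce
import Vale.Agent.Lib.P328.FiniteR2
import Vale.Agent.Lib.P328.Mix

/-!
The three-row inequality and the mixing bound for row sums at most two.
-/

namespace Vale.Agent.Lib.P328

open Chk

variable {C : Type*} [Fintype C] [DecidableEq C]

theorem threeRowAt_two {r : Fin 3 → ℕ} (hr : ∀ i, r i ≤ 2) (c : C → ℕ) : ThreeRowAt r c := by
  apply threeRowAt_of_checkRows
  have h := checkUpTo_two
  unfold checkUpTo at h
  simp only [List.all_eq_true, List.mem_range] at h
  exact h _ (by have := hr 0; omega) _ (by have := hr 1; omega) _ (by have := hr 2; omega)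

theorem allTriples_two {m : ℕ} {r : Fin m → ℕ} (hr : ∀ i, r i ≤ 2) (c : C → ℕ) : AllTriples r c :=
  fun τ _ _ _ => threeRowAt_two (fun i => hr (τ i)) _

end Vale.Agent.Lib.P328
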