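import Vale.Agent.Lib.P328.RowForm

/-!
Sums over tables with three rows as double sums over pairs of compatible rows.
-/

set_option linter.unusedSectionVars false
set_option linter.unusedSimpArgs false

namespace Vale.Agent.Lib.P328

open Finset

variable {C : Type*} [Fintype C] [DecidableEq C]

/-- The possible rows with sum `s` below the column sums `c`. -/
def RowsF (c : C → ℕ) (s : ℕ) : Finset (C → ℕ) :=
  (Fintype.piFinset fun j => range (c j + 1)).filter fun x => ∑ j, x j = s

theorem mem_RowsF {c : C → ℕ} {s : ℕ} {x : C → ℕ} :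
    x ∈ RowsF c s ↔ (∀ j, x j ≤ c j) ∧ ∑ j, x j = s := by
  simp only [RowsF, mem_filter, Fintype.mem_piFinset, mem_range, Nat.lt_succ_iff]

variable {r : Fin 3 → ℕ} {c : C → ℕ}

/-- The table with rows `x` at `i`, `y` at `k`, and the remainder elsewhere. -/
def mkT (c : C → ℕ) (i k : Fin 3) (x y : C → ℕ) : Tb 3 C :=
  fun a => if a = i then x else if a = k then y else fun j => c j - x j - y j

section

variable {i k t : Fin 3} (hik : i ≠ k) (hit : i ≠ t) (hkt : k ≠ t)

include hik hit hkt

theorem all_three (a : Fin 3) : a = i ∨ a = k ∨ a = t := by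
  revert hik hit hkt
  revert i k t a
  decide

theorem sum_three (g : Fin 3 → ℕ) : ∑ a, g a = g i + g k + g t := by
  revert g hik hit hkt
  revert i k t
  intro i k t
  fin_cases i <;> fin_cases k <;> fin_cases t <;> intro h1 h2 h3 g <;>
    first
    | exact absurd rfl h1
    | exact absurd rfl h2
    | exact absurd rfl h3
    | (simp only [Fin.sum_univ_three]; try simp; try ring)

theorem sum_tab_pair (hsum : ∑ j, c j = ∑ a, r a) (u w : (C → ℕ) → ℝ) :
    ∑ T ∈ Tab r c, u (T i) * w (T k) =
      ∑ x ∈ RowsF c (r i), ∑ y ∈ RowsF c (r k),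
        if ∀ j, x j + y j ≤ c j then u x * w y else 0 := by
  have hR := sum_three hik hit hkt r
  have hcol : ∀ (T : Tb 3 C) (j : C), colS T j = T i j + T k j + T t j := fun T j =>
    sum_three hik hit hkt (fun a => T a j)
  rw [← Finset.sum_product' (f := fun x y => if ∀ j, x j + y j ≤ c j then u x * w y else 0)]
  rw [← Finset.sum_filter]
  refine Finset.sum_nbij' (fun T => (T i, T k)) (fun p => mkT c i k p.1 p.2) ?_ ?_ ?_ ?_ ?_
  · intro T hT
    rw [mem_Tab] at hT
    simp only [mem_filter, mem_product, mem_RowsF]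
    refine ⟨⟨⟨fun j => ?_, hT.1 i⟩, ⟨fun j => ?_, hT.1 k⟩⟩, fun j => ?_⟩
    · have := hT.2 j
      rw [hcol] at this
      omega
    · have := hT.2 j
      rw [hcol] at this
      omega
    · have := hT.2 j
      rw [hcol] at this
      omega
  · rintro ⟨x, y⟩ hp
    simp only [mem_filter, mem_product, mem_RowsF] at hp
    obtain ⟨⟨⟨hx1, hx2⟩, ⟨hy1, hy2⟩⟩, hxy⟩ := hp
    have hMi : mkT c i k x y i = x := by simp [mkT]
    have hMk : mkT c i k x y k = y := by simp [mkT, hik.symm]
    have hMt : mkT c i k x y t = fun j => c j - x j - y j := by simp [mkT, hit.symm, hkt.symm]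
    rw [mem_Tab]
    constructor
    · intro a
      rcases all_three hik hit hkt a with rfl | rfl | rfl
      · simp only [rowS, hMi]
        exact hx2
      · simp only [rowS, hMk]
        exact hy2
      · simp only [rowS, hMt]
        have h1 : ∑ j, (c j - x j - y j) + ∑ j, x j + ∑ j, y j = ∑ j, c j := by
          rw [← Finset.sum_add_distrib, ← Finset.sum_add_distrib]
          refine Finset.sum_congr rfl (fun j _ => ?_)
          have := hxy j
          omega
        rw [hx2, hy2, hsum, hR] at h1
        omega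
    · intro j
      rw [hcol, hMi, hMk, hMt]
      have := hxy j
      simp only
      omega
  · intro T hT
    rw [mem_Tab] at hT
    funext a
    rcases all_three hik hit hkt a with rfl | rfl | rfl
    · simp [mkT]
    · simp [mkT, hik.symm]
    · funext j
      have := hT.2 j
      rw [hcol] at this
      simp only [mkT, hit.symm, hkt.symm, if_false]
      omega
  · rintro ⟨x, y⟩ _
    simp [mkT, hik.symm]
  · intro T hT
    rfl

end

/-- The degree of a row: the number of rows compatible with it. -/
def degF (c : C → ℕ) (s : ℕ) (x : C → ℕ) : ℕ :=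
  ((RowsF c s).filter fun y => ∀ j, x j + y j ≤ c j).card

theorem sum_tab_single {i k t : Fin 3} (hik : i ≠ k) (hit : i ≠ t) (hkt : k ≠ t)
    (hsum : ∑ j, c j = ∑ a, r a) (u : (C → ℕ) → ℝ) :
    ∑ T ∈ Tab r c, u (T i) = ∑ x ∈ RowsF c (r i), (degF c (r k) x : ℝ) * u x := by
  have h := sum_tab_pair hik hit hkt hsum u (fun _ => 1)
  simp only [mul_one] at h
  rw [h]
  refine Finset.sum_congr rfl (fun x _ => ?_)
  rw [← Finset.sum_filter, Finset.sum_const, nsmul_eq_mul]
  rfl

theorem card_tab {i k t : Fin 3} (hik : i ≠ k) (hit : i ≠ t) (hkt : k ≠ t)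
    (hsum : ∑ j, c j = ∑ a, r a) :
    ((Tab r c).card : ℝ) = ∑ x ∈ RowsF c (r i), (degF c (r k) x : ℝ) := by
  have h := sum_tab_single hik hit hkt hsum (fun _ => 1)
  simp only [mul_one, Finset.sum_const, nsmul_eq_mul] at h
  exact h

end Vale.Agent.Lib.P328
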