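import Vale.Agent.Lib.P328.Caputo

/-!
Transport of the triple term to tables with three rows.
-/

set_option linter.unusedSectionVars false
set_option linter.unusedSimpArgs false

namespace Vale.Agent.Lib.P328

open Finset
open Vale.Agent.Lib.P335 (avg dot fib mean mem_fib self_mem_fib fib_congr avg_congr fib_card_pos
  avg_congr_fun avg_const avg_avg dot_comm dot_sub_left dot_sub_right dot_self_nonneg dot_congr
  dot_avg_comm avg_filter_block dot_fiberwise avg_comm_of_block gap_of_bochner avg_transport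
  dot_transport)

variable {m : ℕ} {C : Type*} [Fintype C] [DecidableEq C]

/-- The key given by one row of a table with three rows. -/
def rowKey3 (i : Fin 3) (y : Tb 3 C) : C → ℕ := y i

/-- The three-row inequality for the margins `r`, `c`: for every function `f` on the set of tables
with these margins, the sum over the three pairs of rows of the inner products of the residuals of
`f` with respect to conditioning on one row is nonnegative. -/
def ThreeRowAt (r : Fin 3 → ℕ) (c : C → ℕ) : Prop :=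
  ∀ f : Tb 3 C → ℝ,
    0 ≤ dot (Tab r c) (fun y => f y - avg (Tab r c) (rowKey3 0) f y)
          (fun y => f y - avg (Tab r c) (rowKey3 1) f y) +
        dot (Tab r c) (fun y => f y - avg (Tab r c) (rowKey3 0) f y)
          (fun y => f y - avg (Tab r c) (rowKey3 2) f y) +
        dot (Tab r c) (fun y => f y - avg (Tab r c) (rowKey3 1) f y)
          (fun y => f y - avg (Tab r c) (rowKey3 2) f y)

theorem f3a : ∀ i j : Fin 3, j = i ∨ j = i + 1 ∨ j = i + 2 := by decide
theorem f3b : ∀ i : Fin 3, i ≠ i + 1 := by decide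
theorem f3c : ∀ i : Fin 3, i ≠ i + 2 := by decide

section Block

variable (τ : Fin 3 → Fin m)

/-- The table with the rows of the triple erased. -/
def blk3 (X : Tb m C) : Tb m C := fun i => if ∃ k, τ k = i then fun _ => 0 else X i

/-- The three rows of the triple. -/
def toT (X : Tb m C) : Tb 3 C := fun k => X (τ k)

/-- The column sums of the three rows. -/
def cols3 (X : Tb m C) : C → ℕ := fun j => colS (toT τ X) j

variable {τ}

theorem blk3_eq_iff {X Y : Tb m C} :
    blk3 τ X = blk3 τ Y ↔ ∀ i, (¬ ∃ k, τ k = i) → X i = Y i := by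
  constructor
  · intro h i hi
    have := congrFun h i
    simpa [blk3, hi] using this
  · intro h
    funext i
    unfold blk3
    by_cases hi : ∃ k, τ k = i
    · rw [if_pos hi, if_pos hi]
    · rw [if_neg hi, if_neg hi]
      exact h i hi

theorem colS_triple (hτ : Function.Injective τ) (X : Tb m C) (j : C) :
    colS X j = colS (toT τ X) j + ∑ i ∈ (univ.image τ)ᶜ, X i j := by
  unfold colS toT
  rw [← Finset.sum_add_sum_compl (univ.image τ), sum_image hτ.injOn]

theorem mem_compl_im {i : Fin m} : i ∈ (univ.image τ)ᶜ ↔ ¬ ∃ k, τ k = i := by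
  simp

theorem toT_col_eq (hτ : Function.Injective τ) {r : Fin m → ℕ} {c : C → ℕ} {X Y : Tb m C}
    (hX : X ∈ Tab r c) (hY : Y ∈ Tab r c) (hb : blk3 τ X = blk3 τ Y) (j : C) :
    colS (toT τ X) j = colS (toT τ Y) j := by
  have h1 := colS_triple hτ X j
  have h2 := colS_triple hτ Y j
  rw [(mem_Tab.1 hX).2 j] at h1
  rw [(mem_Tab.1 hY).2 j] at h2
  rw [blk3_eq_iff] at hb
  have h3 : ∑ i ∈ (univ.image τ)ᶜ, X i j = ∑ i ∈ (univ.image τ)ᶜ, Y i j :=
    Finset.sum_congr rfl (fun i hi => by
      rw [hb i (mem_compl_im.1 hi)])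
  omega

/-- The table obtained from `x0` by replacing the rows of the triple. -/
noncomputable def glue (τ : Fin 3 → Fin m) (x0 : Tb m C) (y : Tb 3 C) : Tb m C := by
  classical
  exact fun i => if h : ∃ k, τ k = i then y h.choose else x0 i

theorem glue_tau (hτ : Function.Injective τ) (x0 : Tb m C) (y : Tb 3 C) (k : Fin 3) :
    glue τ x0 y (τ k) = y k := by
  have h : ∃ k', τ k' = τ k := ⟨k, rfl⟩
  simp only [glue, dif_pos h]
  rw [hτ h.choose_spec]

theorem glue_off (x0 : Tb m C) (y : Tb 3 C) {i : Fin m} (hi : ¬ ∃ k, τ k = i) :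
    glue τ x0 y i = x0 i := by
  simp only [glue, dif_neg hi]

theorem block_image (hτ : Function.Injective τ) {r : Fin m → ℕ} {c : C → ℕ} {x0 : Tb m C}
    (hx0 : x0 ∈ Tab r c) :
    ((Tab r c).filter fun x => blk3 τ x = blk3 τ x0).image (toT τ) =
      Tab (r ∘ τ) (cols3 τ x0) := by
  ext y
  simp only [mem_image, mem_filter]
  constructor
  · rintro ⟨x, ⟨hx, hb⟩, rfl⟩
    rw [mem_Tab]
    refine ⟨fun k => (mem_Tab.1 hx).1 (τ k), fun j => toT_col_eq hτ hx hx0 hb j⟩
  · intro hy
    rw [mem_Tab] at hy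
    have hb : blk3 τ (glue τ x0 y) = blk3 τ x0 := by
      rw [blk3_eq_iff]
      exact fun i hi => glue_off x0 y hi
    have ht : toT τ (glue τ x0 y) = y := by
      funext k
      exact glue_tau hτ x0 y k
    refine ⟨glue τ x0 y, ⟨?_, hb⟩, ht⟩
    rw [mem_Tab]
    constructor
    · intro i
      by_cases hi : ∃ k, τ k = i
      · obtain ⟨k, rfl⟩ := hi
        have : glue τ x0 y (τ k) = y k := glue_tau hτ x0 y k
        simp only [rowS, this]
        exact hy.1 k
      · have : glue τ x0 y i = x0 i := glue_off x0 y hi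
        simp only [rowS, this]
        exact (mem_Tab.1 hx0).1 i
    · intro j
      rw [colS_triple hτ, ht, hy.2 j, ← (mem_Tab.1 hx0).2 j, colS_triple hτ x0 j]
      congr 1
      exact Finset.sum_congr rfl (fun i hi => by
        rw [glue_off x0 y (mem_compl_im.1 hi)])

theorem key_row_iff (hτ : Function.Injective τ) {X Y : Tb m C} (hb : blk3 τ X = blk3 τ Y)
    (i : Fin 3) :
    keyP (τ (i + 1)) (τ (i + 2)) X = keyP (τ (i + 1)) (τ (i + 2)) Y ↔
      rowKey3 i (toT τ X) = rowKey3 i (toT τ Y) := by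
  rw [keyP_eq_iff]
  constructor
  · intro h
    exact h (τ i) (hτ.ne (f3b i)) (hτ.ne (f3c i))
  · intro h p h1 h2
    by_cases hp : ∃ k, τ k = p
    · obtain ⟨k, rfl⟩ := hp
      rcases f3a i k with rfl | rfl | rfl
      · exact h
      · exact absurd rfl h1
      · exact absurd rfl h2
    · exact (blk3_eq_iff.1 hb) p hp

theorem toT_injOn (hτ : Function.Injective τ) {r : Fin m → ℕ} {c : C → ℕ} {x0 : Tb m C} :
    Set.InjOn (toT τ) (((Tab r c).filter fun x => blk3 τ x = blk3 τ x0 : Finset (Tb m C)) :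
      Set (Tb m C)) := by
  intro x hx x' hx' h
  have hx1 := (mem_filter.1 (Finset.mem_coe.1 hx)).2
  have hx2 := (mem_filter.1 (Finset.mem_coe.1 hx')).2
  have hb := blk3_eq_iff.1 (hx1.trans hx2.symm)
  funext i
  by_cases hi : ∃ k, τ k = i
  · obtain ⟨k, rfl⟩ := hi
    exact congrFun h k
  · exact hb i hi

theorem triple_block (hτ : Function.Injective τ) {r : Fin m → ℕ} {c : C → ℕ} (f : Tb m C → ℝ)
    {x0 : Tb m C} (hx0 : x0 ∈ Tab r c) (h3 : ThreeRowAt (r ∘ τ) (cols3 τ x0)) :
    0 ≤ dot ((Tab r c).filter fun x => blk3 τ x = blk3 τ x0) (LL r c (τ (0 + 1)) (τ (0 + 2)) f)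
          (LL r c (τ (1 + 1)) (τ (1 + 2)) f) +
        dot ((Tab r c).filter fun x => blk3 τ x = blk3 τ x0) (LL r c (τ (0 + 1)) (τ (0 + 2)) f)
          (LL r c (τ (2 + 1)) (τ (2 + 2)) f) +
        dot ((Tab r c).filter fun x => blk3 τ x = blk3 τ x0) (LL r c (τ (1 + 1)) (τ (1 + 2)) f)
          (LL r c (τ (2 + 1)) (τ (2 + 2)) f) := by
  classical
  set s := (Tab r c).filter fun x => blk3 τ x = blk3 τ x0 with hs
  have hsm : ∀ x ∈ s, x ∈ Tab r c ∧ blk3 τ x = blk3 τ x0 := fun x hx => by
    rw [hs, mem_filter] at hx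
    exact hx
  have hinj : Set.InjOn (toT τ) (s : Set (Tb m C)) := toT_injOn hτ
  have himg := block_image hτ hx0
  rw [← hs] at himg
  let g : Tb 3 C → ℝ := fun y => f (Function.invFunOn (toT τ) (s : Set (Tb m C)) y)
  have hg : ∀ x ∈ s, g (toT τ x) = f x := by
    intro x hx
    show f _ = f x
    rw [hinj.leftInvOn_invFunOn (Finset.mem_coe.2 hx)]
  have hF : ∀ i, ∀ x ∈ s, (fun y => g y - avg (Tab (r ∘ τ) (cols3 τ x0)) (rowKey3 i) g y) (toT τ x) =
      LL r c (τ (i + 1)) (τ (i + 2)) f x := by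
    intro i x hx
    have h1 := avg_transport hinj himg (κ := keyP (τ (i + 1)) (τ (i + 2))) (κ' := rowKey3 i)
      (fun a ha b hb => key_row_iff hτ ((hsm a ha).2.trans (hsm b hb).2.symm) i)
      (f := f) (g := g) hg hx
    have h2 := avg_filter_block (s := Tab r c) (κ := keyP (τ (i + 1)) (τ (i + 2))) (β := blk3 τ)
      (fun a _ b _ hab => by
        rw [blk3_eq_iff]
        intro p hp
        rw [keyP_eq_iff] at hab
        exact hab p (fun h => hp ⟨_, h.symm⟩) (fun h => hp ⟨_, h.symm⟩)) f (hsm x hx).1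
    rw [(hsm x hx).2, ← hs] at h2
    show g (toT τ x) - avg _ (rowKey3 i) g (toT τ x) = f x - _
    rw [hg x hx, h1, h2]
  have := h3 g
  rw [dot_transport hinj himg (hF 0) (hF 1), dot_transport hinj himg (hF 0) (hF 2),
    dot_transport hinj himg (hF 1) (hF 2)] at this
  exact this

end Block

section Assemble

variable {r : Fin m → ℕ} {c : C → ℕ}

/-- The hypothesis of the main theorem: the three-row inequality for all the margins which arise
from three distinct rows of a table in `Tab r c`. -/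
def AllTriples (r : Fin m → ℕ) (c : C → ℕ) : Prop :=
  ∀ τ : Fin 3 → Fin m, Function.Injective τ → ∀ x0 ∈ Tab r c, ThreeRowAt (r ∘ τ) (cols3 τ x0)

theorem triple_nonneg (h3 : AllTriples r c) (f : Tb m C → ℝ) {u v w : Fin m} (huv : u ≠ v)
    (huw : u ≠ w) (hvw : v ≠ w) :
    0 ≤ dot (Tab r c) (LL r c u v f) (LL r c u w f) + dot (Tab r c) (LL r c u v f) (LL r c v w f) +
      dot (Tab r c) (LL r c u w f) (LL r c v w f) := by
  classical
  let τ : Fin 3 → Fin m := ![u, v, w]
  have hτ : Function.Injective τ := by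
    intro i j h
    fin_cases i <;> fin_cases j <;> simp_all [τ]
  have e0 : LL r c (τ (0 + 1)) (τ (0 + 2)) f = LL r c v w f := rfl
  have e1 : LL r c (τ (1 + 1)) (τ (1 + 2)) f = LL r c u w f := LL_comm r c w u f
  have e2 : LL r c (τ (2 + 1)) (τ (2 + 2)) f = LL r c u v f := rfl
  have hb : ∀ x0 ∈ Tab r c, 0 ≤ dot ((Tab r c).filter fun x => blk3 τ x = blk3 τ x0) (LL r c v w f)
      (LL r c u w f) + dot ((Tab r c).filter fun x => blk3 τ x = blk3 τ x0) (LL r c v w f)
      (LL r c u v f) + dot ((Tab r c).filter fun x => blk3 τ x = blk3 τ x0) (LL r c u w f)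
      (LL r c u v f) := by
    intro x0 hx0
    have := triple_block hτ f hx0 (h3 τ hτ x0 hx0)
    rwa [e0, e1, e2] at this
  have hs : 0 ≤ dot (Tab r c) (LL r c v w f) (LL r c u w f) +
      dot (Tab r c) (LL r c v w f) (LL r c u v f) +
      dot (Tab r c) (LL r c u w f) (LL r c u v f) := by
    rw [dot_fiberwise (Tab r c) (blk3 τ) (LL r c v w f) (LL r c u w f),
      dot_fiberwise (Tab r c) (blk3 τ) (LL r c v w f) (LL r c u v f),
      dot_fiberwise (Tab r c) (blk3 τ) (LL r c u w f) (LL r c u v f), ← Finset.sum_add_distrib,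
      ← Finset.sum_add_distrib]
    refine Finset.sum_nonneg (fun b hb' => ?_)
    obtain ⟨x0, hx0, rfl⟩ := Finset.mem_image.1 hb'
    exact hb x0 hx0
  rw [dot_comm (Tab r c) (LL r c v w f) (LL r c u w f), dot_comm (Tab r c) (LL r c v w f) (LL r c u v f),
    dot_comm (Tab r c) (LL r c u w f) (LL r c u v f)] at hs
  linarith

end Assemble

end Vale.Agent.Lib.P328
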